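import Vale.Agent.Lib.P176.Sums

namespace Vale.Agent.Lib.P176

universe u

section Cone

variable {A : Type u} [Ring A] (N : ℕ → ℤ → Type u) [∀ i n, AddCommGroup (N i n)]
  [∀ i n, Module A (N i n)] (D : ∀ i (a b : ℤ), N i a →ₗ[A] N i b)

/-- the terms of the cone of `⨁ᵢ Nᵢ → ∏ᵢ Nᵢ` -/
abbrev Yt (n : ℤ) : Type u := (Π₀ i, N i (n + 1)) × (∀ i, N i n)

/-- the inclusion of the sum in the product -/
def iota (m : ℤ) : (Π₀ i, N i m) →ₗ[A] (∀ i, N i m) := LinearMap.pi fun i => DFinsupp.lapply i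

/-- differential of the sum -/
def dSum (a b : ℤ) : (Π₀ i, N i a) →ₗ[A] (Π₀ i, N i b) :=
  DFinsupp.mapRange.linearMap fun i => D i a b

/-- differential of the product -/
def dProd (a b : ℤ) : (∀ i, N i a) →ₗ[A] (∀ i, N i b) :=
  LinearMap.pi fun i => (D i a b).comp (LinearMap.proj i)

/-- differential of the cone -/
def dY (n : ℤ) : Yt N n →ₗ[A] Yt N (n + 1) :=
  LinearMap.prod (-(dSum N D (n + 1) (n + 1 + 1)).comp (LinearMap.fst A _ _))
    ((iota N (n + 1)).comp (LinearMap.fst A _ _) + (dProd N D n (n + 1)).comp (LinearMap.snd A _ _))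

@[simp] lemma iota_apply (m : ℤ) (σ : Π₀ i, N i m) (i : ℕ) : iota (A := A) N m σ i = σ i := rfl

@[simp] lemma dSum_apply (a b : ℤ) (σ : Π₀ i, N i a) (i : ℕ) :
    dSum N D a b σ i = D i a b (σ i) := by
  simp [dSum]

@[simp] lemma dProd_apply (a b : ℤ) (π : ∀ i, N i a) (i : ℕ) :
    dProd N D a b π i = D i a b (π i) := rfl

lemma dY_fst (n : ℤ) (z : Yt N n) : (dY N D n z).1 = -(dSum N D (n + 1) (n + 1 + 1) z.1) := rfl

lemma dY_snd (n : ℤ) (z : Yt N n) :
    (dY N D n z).2 = iota (A := A) N (n + 1) z.1 + dProd N D n (n + 1) z.2 := rfl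

theorem dY_comp (hD : ∀ i a b c, (D i b c).comp (D i a b) = 0) (n : ℤ) :
    (dY N D (n + 1)).comp (dY N D n) = 0 := by
  have hD' : ∀ i a b c x, D i b c (D i a b x) = 0 := fun i a b c x =>
    LinearMap.congr_fun (hD i a b c) x
  apply LinearMap.ext
  intro z
  apply Prod.ext
  · ext i
    simp [dY_fst, hD']
  · ext i
    simp [dY_fst, dY_snd, hD']

open Classical in
/-- exactness of `Hom(X, cone)` for a finitely generated module `X` -/
theorem cone_exact {X : Type u} [AddCommGroup X] [Module A X] [Module.Finite A X] (n : ℤ)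
    (T : Finset ℕ)
    (hT : ∀ i ∉ T, ∀ π : X →ₗ[A] N i (n + 1), (D i (n + 1) (n + 1 + 1)).comp π = 0 →
      ∃ π' : X →ₗ[A] N i n, (D i n (n + 1)).comp π' = π)
    (φ : X →ₗ[A] Yt N (n + 1)) (hφ : (dY N D (n + 1)).comp φ = 0) :
    ∃ ψ : X →ₗ[A] Yt N n, (dY N D n).comp ψ = φ := by
  obtain ⟨S₀, hS₀⟩ := exists_finite_support (fun i => N i (n + 1 + 1))
    ((LinearMap.fst A _ _).comp φ)
  set S := S₀ ∪ T with hS
  -- components
  let π : ∀ i, X →ₗ[A] N i (n + 1) := fun i => (LinearMap.proj i).comp ((LinearMap.snd A _ _).comp φ)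
  have hπ : ∀ i x, π i x = (φ x).2 i := fun i x => rfl
  have h2 : ∀ i x, (φ x).1 i + D i (n + 1) (n + 1 + 1) ((φ x).2 i) = 0 := by
    intro i x
    have := congrArg (fun z : Yt N (n + 1 + 1) => z.2 i) (LinearMap.congr_fun hφ x)
    simpa [dY_snd] using this
  have h3 : ∀ i ∉ S, ∃ π' : X →ₗ[A] N i n, (D i n (n + 1)).comp π' = π i := by
    intro i hi
    have hi1 : i ∉ S₀ := fun h => hi (Finset.mem_union_left _ h)
    have hi2 : i ∉ T := fun h => hi (Finset.mem_union_right _ h)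
    apply hT i hi2
    ext x
    have h4 := h2 i x
    have h5 : (φ x).1 i = 0 := hS₀ i hi1 x
    rw [h5, zero_add] at h4
    exact h4
  let π' : ∀ i, X →ₗ[A] N i n := fun i => if h : i ∈ S then 0 else (h3 i h).choose
  have hπ'1 : ∀ i ∈ S, π' i = 0 := fun i hi => by simp [π', hi]
  have hπ'2 : ∀ i ∉ S, (D i n (n + 1)).comp (π' i) = π i := fun i hi => by
    simp only [π', hi, dite_false]
    exact (h3 i hi).choose_spec
  let σ' : X →ₗ[A] Π₀ i, N i (n + 1) := ∑ i ∈ S, (DFinsupp.lsingle i).comp (π i)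
  have hσ' : ∀ x i, σ' x i = if i ∈ S then π i x else 0 := by
    intro x i
    simp only [σ', LinearMap.sum_apply, LinearMap.comp_apply, DFinsupp.lsingle_apply,
      DFinsupp.finsetSum_apply]
    by_cases hi : i ∈ S
    · rw [Finset.sum_eq_single i, if_pos hi]
      · simp
      · intro j _ hj
        simp [DFinsupp.single_apply, hj]
      · intro h'; exact absurd hi h'
    · rw [if_neg hi]
      refine Finset.sum_eq_zero fun j hj => ?_
      have : j ≠ i := fun e => hi (e ▸ hj)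
      simp [DFinsupp.single_apply, this]
  refine ⟨LinearMap.prod σ' (LinearMap.pi π'), ?_⟩
  apply LinearMap.ext
  intro x
  apply Prod.ext
  · ext i
    have e1 : ((dY N D n).comp (LinearMap.prod σ' (LinearMap.pi π')) x).1 i
        = -(D i (n + 1) (n + 1 + 1) (σ' x i)) := by
      simp only [LinearMap.comp_apply, dY_fst, DFinsupp.neg_apply, dSum_apply]
      rfl
    rw [e1, hσ']
    by_cases hi : i ∈ S
    · rw [if_pos hi, hπ]
      have := h2 i x
      exact (eq_neg_of_add_eq_zero_left this).symm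
    · rw [if_neg hi, map_zero, neg_zero]
      exact (hS₀ i (fun h => hi (Finset.mem_union_left _ h)) x).symm
  · ext i
    have e2 : ((dY N D n).comp (LinearMap.prod σ' (LinearMap.pi π')) x).2 i
        = σ' x i + D i n (n + 1) (π' i x) := by
      simp only [LinearMap.comp_apply, dY_snd, Pi.add_apply, iota_apply, dProd_apply]
      rfl
    rw [e2, hσ']
    by_cases hi : i ∈ S
    · rw [if_pos hi, hπ'1 i hi, hπ]
      simp
    · rw [if_neg hi, zero_add, ← hπ]
      exact LinearMap.congr_fun (hπ'2 i hi) x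

/-- the cone is not exact if infinitely many of the complexes have cohomology in their lowest
degree -/
theorem cone_not_exact (n : ℤ) (hsub : ∀ i, Subsingleton (N i n))
    (y : ∀ i, N i (n + 1)) (hy : ∀ i, y i ≠ 0) (hDy : ∀ i, D i (n + 1) (n + 1 + 1) (y i) = 0) :
    ∃ z : Yt N (n + 1), dY N D (n + 1) z = 0 ∧ ∀ w : Yt N n, dY N D n w ≠ z := by
  classical
  refine ⟨(0, y), ?_, ?_⟩
  · apply Prod.ext
    · simp [dY_fst]
    · ext i
      simp [dY_snd, hDy]
  · intro w hw
    have h1 : ∀ i, w.1 i = y i := by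
      intro i
      have := congrArg (fun z : Yt N (n + 1) => z.2 i) hw
      simp only [dY_snd, Pi.add_apply, iota_apply, dProd_apply] at this
      rw [Subsingleton.elim (w.2 i) 0, map_zero, add_zero] at this
      exact this
    have h2 : ∀ i, i ∈ w.1.support := fun i => by
      rw [DFinsupp.mem_support_iff, h1]; exact hy i
    exact Set.infinite_univ (α := ℕ)
      (w.1.support.finite_toSet.subset fun i _ => h2 i)

theorem baer_Yt [IsNoetherianRing A] (h : ∀ i n, Module.Baer A (N i n)) (n : ℤ) :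
    Module.Baer A (Yt N n) :=
  baer_prod (baer_dfinsupp _ fun i => h i _) (baer_pi _ fun i => h i _)

end Cone

section Glue

variable {A : Type u} [Ring A] {Z₁ Z₂ Z₃ : Type u} [AddCommGroup Z₁] [Module A Z₁]
  [AddCommGroup Z₂] [Module A Z₂] [AddCommGroup Z₃] [Module A Z₃]
  (d₁ : Z₁ →ₗ[A] Z₂) (d₂ : Z₂ →ₗ[A] Z₃)

/-- exactness of `Hom(-, Z)` passes to retracts of direct sums -/
theorem exact_of_retract {X I B : Type u} [AddCommGroup X] [Module A X] [AddCommGroup I]
    [Module A I] (i : I →ₗ[A] (B →₀ X)) (r : (B →₀ X) →ₗ[A] I) (hri : r.comp i = LinearMap.id)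
    (h : ∀ φ : X →ₗ[A] Z₂, d₂.comp φ = 0 → ∃ ψ : X →ₗ[A] Z₁, d₁.comp ψ = φ)
    (φ : I →ₗ[A] Z₂) (hφ : d₂.comp φ = 0) : ∃ ψ : I →ₗ[A] Z₁, d₁.comp ψ = φ := by
  have h1 : ∀ b : B, ∃ ψ : X →ₗ[A] Z₁, d₁.comp ψ = (φ.comp r).comp (Finsupp.lsingle b) := by
    intro b
    apply h
    rw [← LinearMap.comp_assoc, ← LinearMap.comp_assoc, hφ]
    simp
  choose ψ hψ using h1
  refine ⟨(Finsupp.lsum ℕ ψ).comp i, ?_⟩
  have h2 : d₁.comp (Finsupp.lsum ℕ ψ) = φ.comp r := by
    apply Finsupp.lhom_ext'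
    intro b
    rw [← hψ b]
    ext x
    simp
  rw [← LinearMap.comp_assoc, h2, LinearMap.comp_assoc, hri]
  simp

end Glue

end Vale.Agent.Lib.P176
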