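import Mathlib

namespace Vale.Agent.Lib.P176

open CategoryTheory

universe u

/-- `IsCosyzygy j M K`: `K` is a `j`-th cosyzygy of `M`, i.e. it is obtained from `M` by `j`
successive short exact sequences `0 → X → I → X' → 0` with `I` injective. -/
inductive IsCosyzygy {A : Type u} [Ring A] : ℕ → ModuleCat.{u} A → ModuleCat.{u} A → Prop
  | zero (M : ModuleCat.{u} A) : IsCosyzygy 0 M M
  | succ {j : ℕ} {M : ModuleCat.{u} A} (S : ShortComplex (ModuleCat.{u} A)) (hS : S.ShortExact)
      (hI : Injective S.X₂) (h : IsCosyzygy j M S.X₁) : IsCosyzygy (j + 1) M S.X₃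

/-- `T` has co-delooping level at most `n`: for some `j ≤ n`, a `j`-th cosyzygy of `T` is a
retract of `K' ⊞ I`, where `K'` is a `(j+1)`-st cosyzygy of some module and `I` is injective. -/
def CoDeloopLE {A : Type u} [Ring A] (T : ModuleCat.{u} A) (n : ℕ) : Prop :=
  ∃ j ≤ n, ∃ K N K' I : ModuleCat.{u} A, IsCosyzygy j T K ∧ IsCosyzygy (j + 1) N K' ∧
    Injective I ∧ Nonempty (Retract K (K' ⊞ I))

end Vale.Agent.Lib.P176
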