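import Mathlib

namespace Vale.Agent.Lib.P176

open CategoryTheory Limits

universe t w v u

variable (C : Type u) [Category.{v} C] [Abelian C] [HasDerivedCategory.{w} C]

/-- A localizing subcategory of the unbounded derived category: a triangulated subcategory
closed under all coproducts indexed by types in the universe `t`. -/
structure IsLocalizing (P : ObjectProperty (DerivedCategory C)) : Prop where
  isTriangulated : P.IsTriangulated
  coproducts : ∀ {J : Type t} (X : J → DerivedCategory C) (c : Cofan X), IsColimit c →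
    (∀ j, P (X j)) → P c.pt

/-- Injectives generate: the only localizing subcategory of the derived category containing all
injective objects (placed in degree `0`) is the whole derived category. -/
def InjectivesGenerate : Prop :=
  ∀ P : ObjectProperty (DerivedCategory C), IsLocalizing.{t} C P →
    (∀ I : C, Injective I → P ((DerivedCategory.singleFunctor C 0).obj I)) → ∀ X, P X

variable {C}

/-- the shifts of an object -/
def shiftsOf (Z : DerivedCategory C) : ObjectProperty (DerivedCategory C) :=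
  fun W => ∃ n : ℤ, Nonempty (W ≅ Z⟦n⟧)

instance (Z : DerivedCategory C) : (shiftsOf Z).IsStableUnderShift ℤ where
  isStableUnderShiftBy a := ⟨fun _ ⟨n, ⟨e⟩⟩ =>
    ⟨n + a, ⟨(shiftFunctor _ a).mapIso e ≪≫ (shiftFunctorAdd' _ n a (n + a) rfl).symm.app Z⟩⟩⟩

theorem not_injectivesGenerate (Y : CochainComplex C ℤ) [Y.IsKInjective]
    (hY : ¬ Y.Acyclic)
    (h : ∀ (I : C), Injective I → ∀ (n : ℤ)
      (g : (CochainComplex.singleFunctor C 0).obj I ⟶ Y⟦n⟧), Nonempty (Homotopy g 0)) :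
    ¬ InjectivesGenerate.{t} C := by
  intro hgen
  have key := hgen (shiftsOf (DerivedCategory.Q.obj Y)).leftOrthogonal
    ⟨inferInstance, ?_⟩ ?_ (DerivedCategory.Q.obj Y)
  · have h0 : 𝟙 (DerivedCategory.Q.obj Y) = 0 :=
      key (𝟙 _) ⟨0, ⟨(shiftFunctorZero _ ℤ).symm.app _⟩⟩
    have hz : IsZero (DerivedCategory.Q.obj Y) := (IsZero.iff_id_eq_zero _).2 h0
    apply hY
    intro i
    rw [HomologicalComplex.exactAt_iff_isZero_homology]
    have h1 : IsZero ((DerivedCategory.homologyFunctor C i).obj (DerivedCategory.Q.obj Y)) :=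
      (DerivedCategory.homologyFunctor C i).map_isZero hz
    exact h1.of_iso ((DerivedCategory.homologyFunctorFactors C i).app Y).symm
  · intro J X c hc hX Z f hZ
    apply Cofan.IsColimit.hom_ext hc
    intro j
    rw [hX j (c.inj j ≫ f) hZ, comp_zero]
  · intro I hI Z f ⟨n, ⟨e⟩⟩
    set S := (CochainComplex.singleFunctor C 0).obj I with hS
    let e1 : (DerivedCategory.singleFunctor C 0).obj I ≅ DerivedCategory.Q.obj S :=
      (DerivedCategory.singleFunctorIsoCompQ C 0).app I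
    let e2 : DerivedCategory.Q.obj S ≅
        DerivedCategory.Qh.obj ((HomotopyCategory.quotient _ _).obj S) :=
      (DerivedCategory.quotientCompQhIso C).symm.app S
    let e3 : Z ≅ DerivedCategory.Q.obj (Y⟦n⟧) :=
      e ≪≫ ((DerivedCategory.Q.commShiftIso n).app Y).symm
    let e4 : DerivedCategory.Q.obj (Y⟦n⟧) ≅
        DerivedCategory.Qh.obj ((HomotopyCategory.quotient _ _).obj (Y⟦n⟧)) :=
      (DerivedCategory.quotientCompQhIso C).symm.app (Y⟦n⟧)
    obtain ⟨φ, hφ⟩ := (CochainComplex.IsKInjective.Qh_map_bijective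
      ((HomotopyCategory.quotient _ _).obj S) (Y⟦n⟧)).surjective
      (e2.inv ≫ e1.inv ≫ f ≫ e3.hom ≫ e4.hom)
    obtain ⟨g, rfl⟩ := (HomotopyCategory.quotient _ _).map_surjective φ
    obtain ⟨hg⟩ := h I hI n g
    rw [HomotopyCategory.eq_of_homotopy g 0 hg, Functor.map_zero, Functor.map_zero] at hφ
    have h5 : e2.inv ≫ e1.inv ≫ f ≫ e3.hom ≫ e4.hom = 0 := hφ.symm
    have h6 : f = e1.hom ≫ e2.hom ≫ (e2.inv ≫ e1.inv ≫ f ≫ e3.hom ≫ e4.hom) ≫ e4.inv ≫ e3.inv := by
      simp
    rw [h6, h5]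
    simp

omit [HasDerivedCategory C] in
open CochainComplex.HomComplex in
theorem homotopy_zero_of_single (L : CochainComplex C ℤ) (I : C)
    (hE : ∀ φ : I ⟶ L.X 0, φ ≫ L.d 0 1 = 0 → ∃ h : I ⟶ L.X (-1), h ≫ L.d (-1) 0 = φ)
    (g : (CochainComplex.singleFunctor C 0).obj I ⟶ L) : Nonempty (Homotopy g 0) := by
  obtain ⟨φ, hφ⟩ := Cochain.fromSingleMk_surjective (Cochain.ofHom g) 0 (add_zero 0)
  have h1 : δ 0 1 (Cochain.ofHom g) = 0 := δ_ofHom g
  rw [← hφ, Cochain.δ_fromSingleMk φ (add_zero 0) 1 1 (zero_add 1)] at h1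
  have h2 : φ ≫ L.d 0 1 = 0 := by
    have := congrArg (Cochain.fromSingleEquiv (zero_add (1 : ℤ))) h1
    simpa using this
  obtain ⟨h, hh⟩ := hE φ h2
  refine ⟨(Cochain.equivHomotopy g 0).symm ⟨Cochain.fromSingleMk h (zero_add (-1)), ?_⟩⟩
  rw [Cochain.δ_fromSingleMk h (zero_add (-1)) 0 0 (add_zero 0), hh, hφ]
  simp

omit [Abelian C] [HasDerivedCategory C] in
theorem comp_units_smul_eq_zero [Preadditive C] (u : ℤˣ) {I A B : C} (φ : I ⟶ A) (d : A ⟶ B)
    (h : φ ≫ (u • d) = 0) : φ ≫ d = 0 := by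
  rcases Int.units_eq_one_or u with hu | hu
  · simpa [hu] using h
  · rw [hu, Units.smul_def] at h
    simpa using h

omit [Abelian C] [HasDerivedCategory C] in
theorem exists_comp_units_smul [Preadditive C] (u : ℤˣ) {I A B : C} (φ : I ⟶ B) (d : A ⟶ B)
    (h : ∃ ψ : I ⟶ A, ψ ≫ d = φ) : ∃ ψ : I ⟶ A, ψ ≫ (u • d) = φ := by
  obtain ⟨ψ, hψ⟩ := h
  rcases Int.units_eq_one_or u with hu | hu
  · exact ⟨ψ, by simpa [hu] using hψ⟩
  · refine ⟨-ψ, ?_⟩
    rw [hu, Units.smul_def]
    simpa using hψ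

/-- Chain level criterion: a bounded below complex of injectives which is not acyclic but such
that `Hom(I, Y)` is acyclic for all injectives `I` shows that injectives do not generate. -/
theorem not_injectivesGenerate' (Y : CochainComplex C ℤ) [Y.IsKInjective]
    (hY : ¬ Y.Acyclic)
    (h : ∀ (I : C), Injective I → ∀ (a b c : ℤ), a + 1 = b → b + 1 = c →
      ∀ φ : I ⟶ Y.X b, φ ≫ Y.d b c = 0 → ∃ ψ : I ⟶ Y.X a, ψ ≫ Y.d a b = φ) :
    ¬ InjectivesGenerate.{t} C := by
  refine not_injectivesGenerate Y hY fun I hI n g => homotopy_zero_of_single _ I ?_ g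
  intro φ hφ
  have h1 : (Y⟦n⟧).d 0 1 = n.negOnePow • Y.d (0 + n) (1 + n) :=
    CochainComplex.shiftFunctor_obj_d' Y n 0 1
  have h2 : (Y⟦n⟧).d (-1) 0 = n.negOnePow • Y.d (-1 + n) (0 + n) :=
    CochainComplex.shiftFunctor_obj_d' Y n (-1) 0
  rw [h1] at hφ
  rw [h2]
  exact exists_comp_units_smul _ _ _ (h I hI (-1 + n) (0 + n) (1 + n) (by ring) (by ring) φ
    (comp_units_smul_eq_zero _ _ _ hφ))

end Vale.Agent.Lib.P176
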