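import Vale.Agent.Lib.P176.Sums

namespace Vale.Agent.Lib.P176

universe u

variable (k : Type u) [Field k] (A : Type u) [Ring A] [Algebra k A] [FiniteDimensional k A]

open Classical in
/-- every module over a finite dimensional algebra embeds into a direct sum of copies of `DA` -/
theorem exists_embedding (X : Type u) [AddCommGroup X] [Module A X] :
    ∃ (B : Type u) (i : X →ₗ[A] (B →₀ DA k A)), Function.Injective i := by
  letI : Module k X := Module.compHom X (algebraMap k A)
  haveI : IsScalarTower k A X := IsScalarTower.of_algebraMap_smul fun _ _ => rfl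
  let bX := Module.Basis.ofVectorSpace k X
  let bA := Module.finBasis k A
  let F : X → Module.Basis.ofVectorSpaceIndex k X → DA k A := fun x b =>
    DA.ofLin ((bX.coord b).comp ((LinearMap.toSpanSingleton A X x).restrictScalars k))
  have hF : ∀ x b a, F x b a = bX.repr (a • x) b := fun x b a => rfl
  let S : X → Finset (Module.Basis.ofVectorSpaceIndex k X) := fun x =>
    Finset.univ.biUnion fun j => (bX.repr (bA j • x)).support
  have hS : ∀ x b, F x b ≠ 0 → b ∈ S x := by
    intro x b hb
    by_contra hn
    apply hb
    have : (bX.coord b).comp ((LinearMap.toSpanSingleton A X x).restrictScalars k) = 0 := by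
      apply bA.ext
      intro j
      simp only [LinearMap.comp_apply, LinearMap.restrictScalars_apply,
        LinearMap.toSpanSingleton_apply, Module.Basis.coord_apply, LinearMap.zero_apply]
      by_contra hne
      exact hn (Finset.mem_biUnion.2 ⟨j, Finset.mem_univ _, Finsupp.mem_support_iff.2 hne⟩)
    exact this
  refine ⟨Module.Basis.ofVectorSpaceIndex k X,
    { toFun := fun x => Finsupp.onFinset (S x) (F x) (hS x)
      map_add' := fun x y => ?_
      map_smul' := fun c x => ?_ }, ?_⟩
  · ext b a
    simp [hF, smul_add]
  · ext b a
    simp [hF, mul_smul]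
  · intro x y hxy
    apply bX.repr.injective
    ext b
    have := congrArg (fun T : Module.Basis.ofVectorSpaceIndex k X →₀ DA k A => T b 1) hxy
    simpa [hF] using this

/-- every injective module is a retract of a direct sum of copies of `DA` -/
theorem exists_retract (X : Type u) [AddCommGroup X] [Module A X] [Module.Injective A X] :
    ∃ (B : Type u) (i : X →ₗ[A] (B →₀ DA k A)) (r : (B →₀ DA k A) →ₗ[A] X),
      r.comp i = LinearMap.id := by
  obtain ⟨B, i, hi⟩ := exists_embedding k A X
  obtain ⟨r, hr⟩ := Module.Injective.extension_property A X X (B →₀ DA k A) i hi LinearMap.id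
  exact ⟨B, i, r, hr⟩

end Vale.Agent.Lib.P176
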