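import Mathlib
import Vale.Agent.Lib.P176.Defs

namespace Vale.Agent.Lib.P176

open CategoryTheory Abelian

universe u

variable {A : Type u} [Ring A]

/-- noncommutative version of `ModuleCat.hasProjectiveDimensionLT_of_forall_finite` -/
lemma hasProjectiveDimensionLT_of_forall_finite' [IsNoetherianRing A] (M : ModuleCat.{u} A)
    [Module.Finite A M] (n : ℕ)
    (h : ∀ L : ModuleCat.{u} A, Module.Finite A L → Subsingleton (Ext M L n)) :
    HasProjectiveDimensionLT M n := by
  induction n generalizing M with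
  | zero =>
    have : Subsingleton (M ⟶ M) := Ext.homEquiv₀.subsingleton_congr.mp (h M ‹_›)
    have : Limits.IsZero M := (Limits.IsZero.iff_id_eq_zero M).mpr (Subsingleton.eq_zero (𝟙 M))
    exact this.hasProjectiveDimensionLT_zero
  | succ n hn =>
    rcases Module.Finite.exists_fin' A M with ⟨m, f, surjf⟩
    let S : ShortComplex (ModuleCat.{u} A) := f.shortComplexKer
    have hS : S.ShortExact := LinearMap.shortExact_shortComplexKer surjf
    match n with
    | 0 =>
      simp only [zero_add, ← projective_iff_hasProjectiveDimensionLT_one]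
      have : Subsingleton (Ext M S.X₁ 1) := h S.X₁ inferInstance
      rcases Ext.covariant_sequence_exact₃ M hS (Ext.mk₀ (𝟙 M)) (zero_add 1)
        (Subsingleton.eq_zero _) with ⟨f', hf'⟩
      rcases (Ext.mk₀_bijective M S.X₂).2 f' with ⟨f, hf⟩
      rw [← hf, Ext.mk₀_comp_mk₀, (Ext.mk₀_bijective _ _).1.eq_iff] at hf'
      exact (Retract.mk f S.g hf').projective
    | n + 1 =>
      rw [hS.hasProjectiveDimensionLT_X₃_iff n inferInstance]
      have (L : ModuleCat.{u} A) : Subsingleton (Ext S.X₁ L (n + 1)) ↔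
        Subsingleton (Ext M L (n + 2)) := by
        have (m : ℕ) : Subsingleton (Ext S.X₂ L (m + 1)) := Ext.subsingleton_of_projective S.X₂ L m
        have isi : IsIso (AddCommGrpCat.ofHom (hS.extClass.precomp L (add_comm 1 _))) :=
          (Ext.contravariantSequence_exact hS L (n + 1) (n + 2)
            (add_comm 1 _)).isIso_map' 1 (by decide)
              ((AddCommGrpCat.of _).isZero_of_subsingleton.eq_zero_of_src _)
                ((AddCommGrpCat.of _).isZero_of_subsingleton.eq_zero_of_tgt _)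
        exact (asIso (AddCommGrpCat.ofHom (hS.extClass.precomp L
          (add_comm 1 _)))).addCommGroupIsoToAddEquiv.subsingleton_congr
      apply hn S.X₁
      simpa [this] using h

/-- all elements zero gives subsingleton -/
lemma subsingleton_of_forall_zero {X Y : ModuleCat.{u} A} {n : ℕ}
    (h : ∀ x : Ext X Y n, x = 0) : Subsingleton (Ext X Y n) :=
  ⟨fun x y => by rw [h x, h y]⟩

/-- vanishing of `Ext M - n` passes to extensions -/
lemma subsingleton_ext_X₂ (M : ModuleCat.{u} A) {S : ShortComplex (ModuleCat.{u} A)}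
    (hS : S.ShortExact) (n : ℕ)
    (h₁ : Subsingleton (Ext M S.X₁ n)) (h₃ : Subsingleton (Ext M S.X₃ n)) :
    Subsingleton (Ext M S.X₂ n) := by
  apply subsingleton_of_forall_zero
  intro x
  obtain ⟨x₁, hx₁⟩ := Ext.covariant_sequence_exact₂ M hS x (Subsingleton.elim _ _)
  rw [← hx₁, Subsingleton.elim x₁ 0, Ext.zero_comp]

/-- `Ext^n(M,X₃)=0` implies `Ext^{n+1}(M,X₁)=0` if `X₂` is injective -/
lemma subsingleton_ext_X₁_succ (M : ModuleCat.{u} A) {S : ShortComplex (ModuleCat.{u} A)}
    (hS : S.ShortExact) (hI : Injective S.X₂) (n : ℕ)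
    (h₃ : Subsingleton (Ext M S.X₃ n)) : Subsingleton (Ext M S.X₁ (n + 1)) := by
  apply subsingleton_of_forall_zero
  intro x
  obtain ⟨x₃, hx₃⟩ := Ext.covariant_sequence_exact₁ M hS x (Ext.eq_zero_of_injective _) rfl
  rw [← hx₃, Subsingleton.elim x₃ 0, Ext.zero_comp]

/-- `Ext^{n+2}(M,X₁)=0` implies `Ext^{n+1}(M,X₃)=0` if `X₂` is injective -/
lemma subsingleton_ext_X₃ (M : ModuleCat.{u} A) {S : ShortComplex (ModuleCat.{u} A)}
    (hS : S.ShortExact) (hI : Injective S.X₂) (n : ℕ)
    (h₁ : Subsingleton (Ext M S.X₁ (n + 2))) : Subsingleton (Ext M S.X₃ (n + 1)) := by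
  apply subsingleton_of_forall_zero
  intro x
  obtain ⟨x₂, hx₂⟩ := Ext.covariant_sequence_exact₃ M hS x (rfl : n + 1 + 1 = n + 2)
    (Subsingleton.elim _ _)
  rw [← hx₂, Ext.eq_zero_of_injective x₂, Ext.zero_comp]

/-- `Ext^{n+1}(M,-)=0` and `Ext^n(M,X₂)=0` imply `Ext^n(M,X₃)=0` -/
lemma subsingleton_ext_X₃_of_epi (M : ModuleCat.{u} A) {S : ShortComplex (ModuleCat.{u} A)}
    (hS : S.ShortExact) (n : ℕ) (h₂ : Subsingleton (Ext M S.X₂ n))
    (h₁ : Subsingleton (Ext M S.X₁ (n + 1))) : Subsingleton (Ext M S.X₃ n) := by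
  apply subsingleton_of_forall_zero
  intro x
  obtain ⟨x₂, hx₂⟩ := Ext.covariant_sequence_exact₃ M hS x (rfl : n + 1 = n + 1)
    (Subsingleton.elim _ _)
  rw [← hx₂, Subsingleton.elim x₂ 0, Ext.zero_comp]

lemma subsingleton_ext_of_retract (M : ModuleCat.{u} A) {X Y : ModuleCat.{u} A} (r : Retract X Y)
    (n : ℕ) (h : Subsingleton (Ext M Y n)) : Subsingleton (Ext M X n) := by
  apply subsingleton_of_forall_zero
  intro x
  have h1 : x = (x.comp (Ext.mk₀ r.i) (add_zero n)).comp (Ext.mk₀ r.r) (add_zero n) := by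
    rw [Ext.comp_assoc_of_second_deg_zero, Ext.mk₀_comp_mk₀, r.retract, Ext.comp_mk₀_id]
  rw [h1, Subsingleton.elim (x.comp (Ext.mk₀ r.i) (add_zero n)) 0, Ext.zero_comp]

lemma subsingleton_ext_biprod (M : ModuleCat.{u} A) (X Y : ModuleCat.{u} A)
    (n : ℕ) (hX : Subsingleton (Ext M X n)) (hY : Subsingleton (Ext M Y n)) :
    Subsingleton (Ext M (X ⊞ Y) n) := by
  apply subsingleton_of_forall_zero
  intro x
  have h1 : x = (x.comp (Ext.mk₀ Limits.biprod.fst) (add_zero n)).comp
      (Ext.mk₀ Limits.biprod.inl) (add_zero n) +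
      (x.comp (Ext.mk₀ Limits.biprod.snd) (add_zero n)).comp
      (Ext.mk₀ Limits.biprod.inr) (add_zero n) := by
    rw [Ext.comp_assoc_of_second_deg_zero, Ext.comp_assoc_of_second_deg_zero, Ext.mk₀_comp_mk₀,
      Ext.mk₀_comp_mk₀, ← Ext.comp_add, ← Ext.mk₀_add, Limits.biprod.total, Ext.comp_mk₀_id]
  rw [h1, Subsingleton.elim (x.comp (Ext.mk₀ Limits.biprod.fst) (add_zero n)) 0,
    Subsingleton.elim (x.comp (Ext.mk₀ Limits.biprod.snd) (add_zero n)) 0, Ext.zero_comp,
    Ext.zero_comp, add_zero]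

/-- shifting down along a cosyzygy -/
lemma IsCosyzygy.subsingleton_ext_down (M : ModuleCat.{u} A) {j : ℕ} {T K : ModuleCat.{u} A}
    (h : IsCosyzygy j T K) : ∀ i : ℕ, Subsingleton (Ext M K i) → Subsingleton (Ext M T (i + j)) := by
  induction h with
  | zero T => intro i hi; exact hi
  | @succ j' _ S hS hI _ ih =>
    intro i hi
    have := ih (i + 1) (subsingleton_ext_X₁_succ M hS hI i hi)
    rwa [show i + 1 + j' = i + (j' + 1) by omega] at this

/-- shifting up along a cosyzygy -/
lemma IsCosyzygy.subsingleton_ext_up (M : ModuleCat.{u} A) {j : ℕ} {T K : ModuleCat.{u} A}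
    (h : IsCosyzygy j T K) :
    ∀ i : ℕ, Subsingleton (Ext M T (i + 1 + j)) → Subsingleton (Ext M K (i + 1)) := by
  induction h with
  | zero T => intro i hi; exact hi
  | @succ j' _ S hS hI _ ih =>
    intro i hi
    apply subsingleton_ext_X₃ M hS hI i
    apply ih (i + 1)
    rwa [show i + 1 + (j' + 1) = i + 1 + 1 + j' by omega] at hi

lemma subsingleton_ext_of_isFiniteLength (M : ModuleCat.{u} A) (n : ℕ)
    (h : ∀ S : ModuleCat.{u} A, IsSimpleModule A S → Subsingleton (Ext M S n))
    (L : Type u) [AddCommGroup L] [Module A L] (hL : IsFiniteLength A L) :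
    Subsingleton (Ext M (ModuleCat.of A L) n) := by
  induction hL with
  | @of_subsingleton L _ _ _ =>
    apply subsingleton_of_forall_zero
    intro x
    have hz : Limits.IsZero (ModuleCat.of A L) := ModuleCat.isZero_of_subsingleton _
    rw [← Ext.comp_mk₀_id x, hz.eq_of_src (𝟙 _) 0, Ext.mk₀_zero, Ext.comp_zero]
  | @of_simple_quotient L _ _ N _ hN ih =>
    let S := ModuleCat.shortComplexOfCompEqZero N.subtype N.mkQ (by ext; simp)
    have hS : S.ShortExact := by
      apply ModuleCat.shortComplex_shortExact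
      · intro x
        simp only [S, ModuleCat.hom_ofHom]
        constructor
        · intro hx
          exact ⟨⟨x, by simpa using hx⟩, rfl⟩
        · rintro ⟨y, rfl⟩
          simp
      · exact N.injective_subtype
      · exact N.mkQ_surjective
    exact subsingleton_ext_X₂ M hS n ih (h (ModuleCat.of A (L ⧸ N)) ‹_›)

/-- key vanishing -/
lemma CoDeloopLE.subsingleton_ext {T : ModuleCat.{u} A} {n : ℕ} (hT : CoDeloopLE T n)
    (M : ModuleCat.{u} A) (d : ℕ) (hd : n + 1 ≤ d) (h : HasProjectiveDimensionLT M (d + 1)) :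
    Subsingleton (Ext M T d) := by
  obtain ⟨j, hj, K, N, K', I, hK, hK', hI, ⟨r⟩⟩ := hT
  obtain ⟨i, rfl⟩ : ∃ i, d = i + 1 + j := ⟨d - j - 1, by omega⟩
  have h1 : Subsingleton (Ext M N (i + 1 + (j + 1))) :=
    HasProjectiveDimensionLT.subsingleton M (i + 1 + j + 1) _ (by omega) N
  have h2 : Subsingleton (Ext M K' (i + 1)) := hK'.subsingleton_ext_up M i h1
  have h3 : Subsingleton (Ext M I (i + 1)) := Ext.subsingleton_of_injective M I i
  have h4 := subsingleton_ext_biprod M K' I (i + 1) h2 h3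
  have h5 := subsingleton_ext_of_retract M r (i + 1) h4
  exact hK.subsingleton_ext_down M (i + 1) h5

/-- descending induction -/
lemma hasProjectiveDimensionLT_of_step (M : ModuleCat.{u} A) (n : ℕ)
    (hstep : ∀ d, n + 1 ≤ d → HasProjectiveDimensionLT M (d + 1) → HasProjectiveDimensionLT M d)
    (m : ℕ) (hm : HasProjectiveDimensionLT M m) : HasProjectiveDimensionLT M (n + 1) := by
  induction m with
  | zero => exact hasProjectiveDimensionLT_of_ge M 0 (n + 1) (by omega)
  | succ m ih =>
    by_cases hmn : n + 1 ≤ m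
    · exact ih (hstep m hmn hm)
    · exact hasProjectiveDimensionLT_of_ge M (m + 1) (n + 1) (by omega)

theorem findim_le_of_simples [IsArtinianRing A] [IsNoetherianRing A] (n : ℕ)
    (h : ∀ S : ModuleCat.{u} A, IsSimpleModule A S → CoDeloopLE S n)
    (M : ModuleCat.{u} A) [Module.Finite A M] (m : ℕ) (hm : HasProjectiveDimensionLT M m) :
    HasProjectiveDimensionLT M (n + 1) := by
  apply hasProjectiveDimensionLT_of_step M n _ m hm
  intro d hd hM
  apply hasProjectiveDimensionLT_of_forall_finite' M d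
  intro L hL
  have hfl : IsFiniteLength A L :=
    isFiniteLength_iff_isNoetherian_isArtinian.2 ⟨inferInstance, inferInstance⟩
  exact subsingleton_ext_of_isFiniteLength M d
    (fun S hS => (h S hS).subsingleton_ext M d hd hM) L hfl

lemma subsingleton_ext_pi (M : ModuleCat.{u} A) (d m : ℕ)
    (h : Subsingleton (Ext M (ModuleCat.of A A) d)) :
    Subsingleton (Ext M (ModuleCat.of A (Fin m → A)) d) := by
  apply subsingleton_of_forall_zero
  intro x
  let Φ : (ModuleCat.of A (Fin m → A) ⟶ ModuleCat.of A (Fin m → A)) →+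
      Ext M (ModuleCat.of A (Fin m → A)) d :=
    AddMonoidHom.mk' (fun f => x.comp (Ext.mk₀ f) (add_zero d))
      (by intro f g; rw [Ext.mk₀_add, Ext.comp_add])
  have hid : 𝟙 (ModuleCat.of A (Fin m → A)) =
      ∑ i : Fin m, (ModuleCat.ofHom (LinearMap.proj (R := A) (φ := fun _ : Fin m => A) i) ≫
        ModuleCat.ofHom (LinearMap.single A (fun _ : Fin m => A) i)) := by
    apply ModuleCat.hom_ext
    apply LinearMap.ext
    intro v
    simp only [ModuleCat.hom_id, LinearMap.id_coe, id_eq, ModuleCat.hom_sum, ModuleCat.hom_comp,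
      ModuleCat.hom_ofHom, LinearMap.sum_apply, LinearMap.comp_apply, LinearMap.proj_apply,
      LinearMap.coe_single]
    exact (Finset.univ_sum_single v).symm
  have h1 : x = Φ (𝟙 _) := (Ext.comp_mk₀_id x).symm
  rw [h1, hid, map_sum]
  apply Finset.sum_eq_zero
  intro i _
  change x.comp (Ext.mk₀ _) (add_zero d) = 0
  rw [← Ext.mk₀_comp_mk₀, ← Ext.comp_assoc_of_second_deg_zero,
    Subsingleton.elim (x.comp (Ext.mk₀ _) (add_zero d)) 0, Ext.zero_comp]

theorem findim_le_of_regular [IsNoetherianRing A] (n : ℕ)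
    (h : CoDeloopLE (ModuleCat.of A A) n)
    (M : ModuleCat.{u} A) [Module.Finite A M] (m : ℕ) (hm : HasProjectiveDimensionLT M m) :
    HasProjectiveDimensionLT M (n + 1) := by
  apply hasProjectiveDimensionLT_of_step M n _ m hm
  intro d hd hM
  apply hasProjectiveDimensionLT_of_forall_finite' M d
  intro L hL
  rcases Module.Finite.exists_fin' A L with ⟨r, f, surjf⟩
  have hS : f.shortComplexKer.ShortExact := LinearMap.shortExact_shortComplexKer surjf
  exact subsingleton_ext_X₃_of_epi M hS d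
    (subsingleton_ext_pi M d r (h.subsingleton_ext M d hd hM))
    (HasProjectiveDimensionLT.subsingleton M (d + 1) _ le_rfl _)

end Vale.Agent.Lib.P176
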