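import Mathlib

namespace Vale.Agent.Lib.P176

universe u v

variable (k : Type v) [Field k] (A : Type u) [Ring A] [Algebra k A]

/-- The `k`-dual `DA = Hom_k(A,k)` of the algebra, a left `A`-module by `(a • f) x = f (x * a)`. -/
def DA : Type (max u v) := A →ₗ[k] k

namespace DA

instance : AddCommGroup (DA k A) := inferInstanceAs (AddCommGroup (A →ₗ[k] k))

instance : FunLike (DA k A) A k := inferInstanceAs (FunLike (A →ₗ[k] k) A k)

variable {k A}

/-- the underlying linear map -/
def toLin (f : DA k A) : A →ₗ[k] k := f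

/-- constructor -/
def ofLin (f : A →ₗ[k] k) : DA k A := f

@[simp] lemma ofLin_apply (f : A →ₗ[k] k) (x : A) : ofLin f x = f x := rfl

@[ext] lemma ext {f g : DA k A} (h : ∀ x, f x = g x) : f = g := LinearMap.ext h

@[simp] lemma add_apply (f g : DA k A) (x : A) : (f + g) x = f x + g x := rfl
@[simp] lemma zero_apply (x : A) : (0 : DA k A) x = 0 := rfl
@[simp] lemma neg_apply (f : DA k A) (x : A) : (-f) x = -(f x) := rfl
lemma map_add' (f : DA k A) (x y : A) : f (x + y) = f x + f y := (toLin f).map_add x y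
lemma map_smul' (f : DA k A) (c : k) (x : A) : f (c • x) = c * f x := (toLin f).map_smul c x
lemma map_zero' (f : DA k A) : f 0 = 0 := (toLin f).map_zero
lemma map_sum' {ι : Type*} (f : DA k A) (s : Finset ι) (g : ι → A) :
    f (∑ i ∈ s, g i) = ∑ i ∈ s, f (g i) := map_sum (toLin f) g s

instance : SMul A (DA k A) := ⟨fun a f => ofLin ((toLin f).comp (LinearMap.mulRight k a))⟩

@[simp] lemma smul_apply (a : A) (f : DA k A) (x : A) : (a • f) x = f (x * a) := rfl

instance : Module A (DA k A) where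
  one_smul f := by ext x; simp
  mul_smul a b f := by ext x; simp [mul_assoc]
  smul_zero a := by ext x; simp
  smul_add a f g := by ext x; simp
  add_smul a b f := by ext x; simp [mul_add, map_add']
  zero_smul f := by ext x; simp [map_zero']

end DA

variable (P : Type u) [AddCommGroup P] [Module A P]

/-- `ν P = Hom_k(Hom_A(P,A),k)`; on finitely generated projectives this is the Nakayama functor. -/
def Nu : Type (max u v) := (P →ₗ[A] A) →ₗ[k] k

variable {A P}

/-- right multiplication of a functional `f : P → A` by `a` -/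
def rdot (f : P →ₗ[A] A) (a : A) : P →ₗ[A] A := (LinearMap.toSpanSingleton A A a).comp f

@[simp] lemma rdot_apply (f : P →ₗ[A] A) (a : A) (p : P) : rdot f a p = f p * a := rfl

lemma rdot_add (f g : P →ₗ[A] A) (a : A) : rdot (f + g) a = rdot f a + rdot g a := by
  ext p; simp [add_mul]

lemma rdot_add' (f : P →ₗ[A] A) (a b : A) : rdot f (a + b) = rdot f a + rdot f b := by
  ext p; simp [mul_add]

lemma rdot_smul (c : k) (f : P →ₗ[A] A) (a : A) : rdot (c • f) a = c • rdot f a := by
  ext p; simp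

lemma rdot_smul' (c : k) (f : P →ₗ[A] A) (a : A) : rdot f (c • a) = c • rdot f a := by
  ext p; simp

lemma rdot_mul (f : P →ₗ[A] A) (a b : A) : rdot f (a * b) = rdot (rdot f a) b := by
  ext p; simp [mul_assoc]

@[simp] lemma rdot_one (f : P →ₗ[A] A) : rdot f 1 = f := by ext p; simp

@[simp] lemma rdot_zero (f : P →ₗ[A] A) : rdot f 0 = 0 := by ext p; simp

namespace Nu

variable {k}

instance : AddCommGroup (Nu k A P) := inferInstanceAs (AddCommGroup ((P →ₗ[A] A) →ₗ[k] k))

instance : FunLike (Nu k A P) (P →ₗ[A] A) k :=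
  inferInstanceAs (FunLike ((P →ₗ[A] A) →ₗ[k] k) (P →ₗ[A] A) k)

/-- the underlying linear map -/
def toLin (ξ : Nu k A P) : (P →ₗ[A] A) →ₗ[k] k := ξ

/-- constructor -/
def ofLin (ξ : (P →ₗ[A] A) →ₗ[k] k) : Nu k A P := ξ

@[simp] lemma ofLin_apply (ξ : (P →ₗ[A] A) →ₗ[k] k) (f : P →ₗ[A] A) : ofLin ξ f = ξ f := rfl

@[ext] lemma ext {ξ ζ : Nu k A P} (h : ∀ f, ξ f = ζ f) : ξ = ζ := LinearMap.ext h

@[simp] lemma add_apply (ξ ζ : Nu k A P) (f : P →ₗ[A] A) : (ξ + ζ) f = ξ f + ζ f := rfl
@[simp] lemma zero_apply (f : P →ₗ[A] A) : (0 : Nu k A P) f = 0 := rfl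
@[simp] lemma neg_apply (ξ : Nu k A P) (f : P →ₗ[A] A) : (-ξ) f = -(ξ f) := rfl
lemma map_add' (ξ : Nu k A P) (f g : P →ₗ[A] A) : ξ (f + g) = ξ f + ξ g := (toLin ξ).map_add f g
lemma map_smul' (ξ : Nu k A P) (c : k) (f : P →ₗ[A] A) : ξ (c • f) = c * ξ f :=
  (toLin ξ).map_smul c f
lemma map_zero' (ξ : Nu k A P) : ξ 0 = 0 := (toLin ξ).map_zero
lemma map_sum' {ι : Type*} (ξ : Nu k A P) (s : Finset ι) (g : ι → (P →ₗ[A] A)) :
    ξ (∑ i ∈ s, g i) = ∑ i ∈ s, ξ (g i) := map_sum (toLin ξ) g s

instance : SMul A (Nu k A P) := ⟨fun a ξ => ofLin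
  { toFun := fun f => ξ (rdot f a)
    map_add' := fun f g => by rw [rdot_add, map_add']
    map_smul' := fun c f => by rw [rdot_smul, map_smul']; rfl }⟩

@[simp] lemma smul_apply (a : A) (ξ : Nu k A P) (f : P →ₗ[A] A) : (a • ξ) f = ξ (rdot f a) := rfl

instance : Module A (Nu k A P) where
  one_smul ξ := by ext f; simp
  mul_smul a b ξ := by ext f; simp [rdot_mul]
  smul_zero a := by ext f; simp
  smul_add a ξ ζ := by ext f; simp
  add_smul a b ξ := by ext f; simp [rdot_add', map_add']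
  zero_smul ξ := by ext f; simp [map_zero']

variable {P' P'' : Type u} [AddCommGroup P'] [Module A P'] [AddCommGroup P''] [Module A P'']

/-- functoriality of `ν` -/
def map (u : P →ₗ[A] P') : Nu k A P →ₗ[A] Nu k A P' where
  toFun ξ := ofLin
    { toFun := fun f => ξ (f.comp u)
      map_add' := fun f g => by rw [LinearMap.add_comp, map_add']
      map_smul' := fun c f => by rw [LinearMap.smul_comp, map_smul']; rfl }
  map_add' ξ ζ := by ext f; simp
  map_smul' a ξ := by ext f; simp; rfl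

@[simp] lemma map_apply (u : P →ₗ[A] P') (ξ : Nu k A P) (f : P' →ₗ[A] A) :
    map u ξ f = ξ (f.comp u) := rfl

lemma map_comp (u : P →ₗ[A] P') (v : P' →ₗ[A] P'') :
    (map (v.comp u) : Nu k A P →ₗ[A] Nu k A P'') = (map v).comp (map u) := by
  ext ξ f; simp [LinearMap.comp_assoc]

lemma map_zero : (map (0 : P →ₗ[A] P') : Nu k A P →ₗ[A] Nu k A P') = 0 := by
  ext ξ f; simp [map_zero']

/-- the natural map `P → Hom_A(DA, ν P)` -/
def eta (p : P) : DA k A →ₗ[A] Nu k A P where
  toFun l := ofLin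
    { toFun := fun f => l (f p)
      map_add' := fun f g => by simp [DA.map_add']
      map_smul' := fun c f => by simp [DA.map_smul'] }
  map_add' l m := by ext f; simp
  map_smul' a l := by ext f; simp

@[simp] lemma eta_apply (p : P) (l : DA k A) (f : P →ₗ[A] A) : eta p l f = l (f p) := rfl

lemma map_comp_eta (u : P →ₗ[A] P') (p : P) :
    (map u).comp (eta p) = (eta (u p) : DA k A →ₗ[A] Nu k A P') := by
  ext l f; simp

end Nu

end Vale.Agent.Lib.P176
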