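import Vale.Agent.Lib.P176.Sums

namespace Vale.Agent.Lib.P176

universe u

variable {k : Type u} [Field k] {A : Type u} [Ring A] [Algebra k A]
variable {P : Type u} [AddCommGroup P] [Module A P]

lemma Nu.sum_apply {ι : Type*} (s : Finset ι) (g : ι → Nu k A P) (f : P →ₗ[A] A) :
    (∑ i ∈ s, g i) f = ∑ i ∈ s, g i f := by
  classical
  induction s using Finset.induction_on with
  | empty => simp
  | insert a s ha ih => rw [Finset.sum_insert ha, Finset.sum_insert ha, Nu.add_apply, ih]

variable (k A P) in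
/-- the sum map `⨁_{p ∈ P} DA → ν P` -/
noncomputable def sumEta : (P →₀ DA k A) →ₗ[A] Nu k A P := Finsupp.lsum ℕ fun p => Nu.eta p

lemma sumEta_apply (Λ : P →₀ DA k A) (f : P →ₗ[A] A) :
    sumEta k A P Λ f = ∑ q ∈ Λ.support, Λ q (f q) := by
  simp only [sumEta, Finsupp.lsum_apply, Finsupp.sum]
  rw [Nu.sum_apply]
  rfl

@[simp] lemma sumEta_single (p : P) (l : DA k A) :
    sumEta k A P (Finsupp.single p l) = Nu.eta p l := by
  simp [sumEta]

variable (k A P) in
/-- `DA ⊗_A P` realised inside `ν P`: the submodule generated by the elementary functionals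
`f ↦ l (f p)`. -/
noncomputable def NuB : Submodule A (Nu k A P) := LinearMap.range (sumEta k A P)

/-- coordinate functionals of a splitting `s : P → A^(P)` -/
noncomputable def cf (s : P →ₗ[A] (P →₀ A)) (j : P) : P →ₗ[A] A := (Finsupp.lapply j).comp s

@[simp] lemma cf_apply (s : P →ₗ[A] (P →₀ A)) (j x : P) : cf s j x = s x j := rfl

lemma apply_eq_sum (s : P →ₗ[A] (P →₀ A)) (hs : ∀ x, Finsupp.linearCombination A id (s x) = x)
    (g : P →ₗ[A] A) (q : P) (S : Finset P) (hS : (s q).support ⊆ S) :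
    g q = ∑ j ∈ S, s q j * g j := by
  conv_lhs => rw [← hs q, Finsupp.linearCombination_apply, Finsupp.sum, map_sum]
  rw [Finset.sum_subset hS]
  · refine Finset.sum_congr rfl fun j _ => by simp
  · intro j _ hj
    rw [Finsupp.notMem_support_iff.1 hj]; simp

/-- finiteness and continuity of the elements of `NuB` -/
theorem NuB.exists_support (s : P →ₗ[A] (P →₀ A))
    (hs : ∀ x, Finsupp.linearCombination A id (s x) = x) (ξ : Nu k A P) (hξ : ξ ∈ NuB k A P) :
    ∃ S₀ : Finset P, (∀ j ∉ S₀, ∀ x, ξ (rdot (cf s j) x) = 0) ∧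
      ∀ S, S₀ ⊆ S → ∀ g : P →ₗ[A] A, ξ g = ∑ j ∈ S, ξ (rdot (cf s j) (g j)) := by
  classical
  obtain ⟨Λ, rfl⟩ := hξ
  refine ⟨Λ.support.biUnion fun q => (s q).support, ?_, ?_⟩
  · intro j hj x
    rw [sumEta_apply]
    refine Finset.sum_eq_zero fun q hq => ?_
    have : s q j = 0 := by
      by_contra hne
      exact hj (Finset.mem_biUnion.2 ⟨q, hq, Finsupp.mem_support_iff.2 hne⟩)
    simp [this, DA.map_zero']
  · intro S hS g
    simp only [sumEta_apply]
    rw [Finset.sum_comm]
    refine Finset.sum_congr rfl fun q hq => ?_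
    rw [← DA.map_sum']
    congr 1
    apply apply_eq_sum s hs
    exact (Finset.subset_biUnion_of_mem (fun q => (s q).support) hq).trans hS

namespace NuB

/-- the natural map `P → Hom_A(DA, DA ⊗ P)` -/
noncomputable def eta (p : P) : DA k A →ₗ[A] NuB k A P :=
  (Nu.eta p).codRestrict (NuB k A P) fun l => ⟨Finsupp.single p l, sumEta_single p l⟩

@[simp] lemma eta_coe (p : P) (l : DA k A) : ((eta p l : NuB k A P) : Nu k A P) = Nu.eta p l := rfl

variable {P' P'' : Type u} [AddCommGroup P'] [Module A P'] [AddCommGroup P''] [Module A P'']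

lemma map_mem (u : P →ₗ[A] P') (ξ : Nu k A P) (hξ : ξ ∈ NuB k A P) : Nu.map u ξ ∈ NuB k A P' := by
  obtain ⟨Λ, rfl⟩ := hξ
  refine ⟨Finsupp.lmapDomain _ A u Λ, ?_⟩
  have h : (sumEta k A P').comp (Finsupp.lmapDomain (DA k A) A u) = (Nu.map u).comp (sumEta k A P) := by
    apply Finsupp.lhom_ext'
    intro p
    ext l f
    simp
  exact LinearMap.congr_fun h Λ

/-- functoriality -/
noncomputable def map (u : P →ₗ[A] P') : NuB k A P →ₗ[A] NuB k A P' :=
  (Nu.map u).restrict (map_mem u)

@[simp] lemma map_coe (u : P →ₗ[A] P') (ξ : NuB k A P) :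
    ((map u ξ : NuB k A P') : Nu k A P') = Nu.map u ξ.1 := rfl

lemma map_comp (u : P →ₗ[A] P') (v : P' →ₗ[A] P'') :
    (map (v.comp u) : NuB k A P →ₗ[A] NuB k A P'') = (map v).comp (map u) := by
  ext ξ : 2
  simp [Nu.map_comp]

lemma map_zero : (map (0 : P →ₗ[A] P') : NuB k A P →ₗ[A] NuB k A P') = 0 := by
  ext ξ : 2
  simp [Nu.map_zero]

lemma map_comp_eta (u : P →ₗ[A] P') (p : P) :
    (map u).comp (eta p) = (eta (u p) : DA k A →ₗ[A] NuB k A P') := by
  ext l : 2
  exact LinearMap.congr_fun (Nu.map_comp_eta u p) l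

theorem subsingleton_of_subsingleton [Subsingleton P] : Subsingleton (NuB k A P) := by
  have := Nu.subsingleton_of_subsingleton (k := k) (A := A) (P := P)
  infer_instance

theorem eta_injective [Module.Projective A P] (p : P)
    (h : (eta p : DA k A →ₗ[A] NuB k A P) = 0) : p = 0 := by
  obtain ⟨s, hs⟩ := Module.projective_def'.1 (inferInstance : Module.Projective A P)
  have hs' : ∀ x, Finsupp.linearCombination A id (s x) = x := fun x => LinearMap.congr_fun hs x
  rw [← hs' p]
  have : s p = 0 := by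
    ext j
    apply DA.eq_zero_of_forall (k := k)
    intro l
    have h1 := congrArg (fun T : DA k A →ₗ[A] NuB k A P => (T l).1 (cf s j)) h
    simpa using h1
  rw [this, _root_.map_zero]

theorem eta_surjective [FiniteDimensional k A] [Module.Finite A (DA k A)] [Module.Projective A P]
    (T : DA k A →ₗ[A] NuB k A P) : ∃ p : P, T = eta p := by
  classical
  obtain ⟨s, hs⟩ := Module.projective_def'.1 (inferInstance : Module.Projective A P)
  have hs' : ∀ x, Finsupp.linearCombination A id (s x) = x := fun x => LinearMap.congr_fun hs x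
  obtain ⟨G, hG⟩ := (Module.Finite.fg_top : (⊤ : Submodule A (DA k A)).FG)
  have hsupp := fun l => exists_support s hs' (T l).1 (T l).2
  choose S₀ hS₀ hS₀' using hsupp
  set S := G.biUnion S₀ with hS
  have claim1 : ∀ j ∉ S, ∀ l x, (T l).1 (rdot (cf s j) x) = 0 := by
    intro j hj l
    have hl : l ∈ Submodule.span A (G : Set (DA k A)) := by rw [hG]; trivial
    induction hl using Submodule.span_induction with
    | mem l hl =>
      exact hS₀ l j fun h => hj (Finset.mem_biUnion.2 ⟨l, hl, h⟩)
    | zero => intro x; simp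
    | add l m _ _ ihl ihm => intro x; simp [ihl x, ihm x]
    | smul a l _ ih =>
      intro x
      rw [map_smul]
      simp only [Submodule.coe_smul, Nu.smul_apply, ← rdot_mul]
      exact ih _
  have h1 : ∀ j, ∃ a : A, ∀ l, (T l).1 (cf s j) = l a := by
    intro j
    apply DA.exists_eval
    · intro l m; simp
    · intro c l
      rw [map_smul]
      simp only [Submodule.coe_smul, Nu.smul_apply]
      have : rdot (cf s j) (algebraMap k A c) = c • cf s j := by
        ext x; simp [← Algebra.commutes, ← Algebra.smul_def]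
      rw [this, Nu.map_smul']
  choose a ha using h1
  refine ⟨∑ j ∈ S, a j • j, ?_⟩
  ext l : 2
  ext g
  rw [hS₀' l (S ∪ S₀ l) Finset.subset_union_right g, eta_coe, Nu.eta_apply, map_sum, DA.map_sum']
  rw [← Finset.sum_subset (Finset.subset_union_left (s₁ := S) (s₂ := S₀ l))]
  · refine Finset.sum_congr rfl fun j _ => ?_
    have h3 : (T l).1 (rdot (cf s j) (g j)) = ((g j • T l : NuB k A P) : Nu k A P) (cf s j) := rfl
    rw [h3, ← map_smul, ha]
    simp
  · intro j _ hj
    exact claim1 j hj l _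

theorem exact_transfer [FiniteDimensional k A] [Module.Finite A (DA k A)]
    [Module.Projective A P] [Module.Projective A P'']
    (u : P' →ₗ[A] P) (v : P →ₗ[A] P'') (hex : ∀ p, v p = 0 → ∃ p', u p' = p)
    (φ : DA k A →ₗ[A] NuB k A P) (hφ : (map v).comp φ = 0) :
    ∃ ψ : DA k A →ₗ[A] NuB k A P', (map u).comp ψ = φ := by
  obtain ⟨p, rfl⟩ := eta_surjective φ
  rw [map_comp_eta] at hφ
  obtain ⟨p', rfl⟩ := hex p (eta_injective _ hφ)
  exact ⟨eta p', map_comp_eta u p'⟩

end NuB

end Vale.Agent.Lib.P176
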