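import Vale.Agent.Lib.P176.NakayamaBig

namespace Vale.Agent.Lib.P176

universe u

variable {k : Type u} [Field k] {A : Type u} [Ring A] [Algebra k A]
variable {P : Type u} [AddCommGroup P] [Module A P]

theorem baer_finsupp [IsNoetherianRing A] (B : Type u) {Q : Type u} [AddCommGroup Q] [Module A Q]
    (h : Module.Baer A Q) : Module.Baer A (B →₀ Q) := by
  classical
  exact Module.Baer.of_equiv (finsuppLequivDFinsupp A).symm (baer_dfinsupp (fun _ : B => Q) fun _ => h)

theorem baer_NuB [IsNoetherianRing A] [Module.Projective A P] : Module.Baer A (NuB k A P) := by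
  classical
  obtain ⟨s, hs⟩ := Module.projective_def'.1 (inferInstance : Module.Projective A P)
  have hs' : ∀ x, Finsupp.linearCombination A id (s x) = x := fun x => LinearMap.congr_fun hs x
  have hsupp := fun ξ : NuB k A P => NuB.exists_support s hs' ξ.1 ξ.2
  choose S₀ hS₀ hS₀' using hsupp
  let F : NuB k A P → P → DA k A := fun ξ j => DA.ofLin
    { toFun := fun x => ξ.1 (rdot (cf s j) x)
      map_add' := fun x y => by rw [rdot_add', Nu.map_add']
      map_smul' := fun c x => by rw [rdot_smul', Nu.map_smul']; rfl }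
  have hF : ∀ ξ j x, F ξ j x = ξ.1 (rdot (cf s j) x) := fun _ _ _ => rfl
  have hFS : ∀ ξ j, F ξ j ≠ 0 → j ∈ S₀ ξ := by
    intro ξ j hne
    by_contra hj
    apply hne
    ext x
    rw [hF, hS₀ ξ j hj x]; rfl
  let σ : NuB k A P →ₗ[A] (P →₀ DA k A) :=
    { toFun := fun ξ => Finsupp.onFinset (S₀ ξ) (F ξ) (hFS ξ)
      map_add' := fun ξ ζ => by ext j x; simp [hF]
      map_smul' := fun a ξ => by ext j x; simp [hF, rdot_mul] }
  refine baer_of_retract σ (sumEta k A P).rangeRestrict (fun ξ => ?_) (baer_finsupp P baer_DA)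
  apply Subtype.ext
  ext g
  change sumEta k A P (Finsupp.onFinset (S₀ ξ) (F ξ) (hFS ξ)) g = ξ.1 g
  rw [sumEta_apply, hS₀' ξ (S₀ ξ) (Finset.Subset.refl _) g]
  rw [Finset.sum_subset (Finsupp.support_onFinset_subset)]
  · rfl
  · intro j _ hj
    rw [Finsupp.notMem_support_iff.1 hj]; rfl

/-! ### Splitting -/

section Split

variable {P' : Type u} [AddCommGroup P'] [Module A P']

lemma mem_jac_smul_top_iff [Module.Projective A P] (x : P) :
    x ∈ (Ring.jacobson A • ⊤ : Submodule A P) ↔ ∀ f : P →ₗ[A] A, f x ∈ Ring.jacobson A := by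
  constructor
  · intro hx f
    induction hx using Submodule.smul_induction_on' with
    | smul a ha y _ =>
      rw [map_smul, smul_eq_mul]
      exact (Ring.jacobson A).mul_mem_right _ ha
    | add y _ z _ ihy ihz => rw [map_add]; exact (Ring.jacobson A).add_mem ihy ihz
  · intro h
    obtain ⟨s, hs⟩ := Module.projective_def'.1 (inferInstance : Module.Projective A P)
    have hs' : Finsupp.linearCombination A id (s x) = x := LinearMap.congr_fun hs x
    rw [← hs', Finsupp.linearCombination_apply, Finsupp.sum]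
    refine Submodule.sum_mem _ fun j _ => ?_
    exact Submodule.smul_mem_smul (h (cf s j)) trivial

lemma pow_apply_mem (ψ : P →ₗ[A] P) (hψ : ∀ x, ψ x ∈ (Ring.jacobson A • ⊤ : Submodule A P)) (n : ℕ)
    (x : P) : (ψ ^ n) x ∈ ((Ring.jacobson A) ^ n • ⊤ : Submodule A P) := by
  induction n generalizing x with
  | zero => rw [Submodule.pow_zero, Ideal.one_eq_top]; simp
  | succ n ih =>
    rw [pow_succ', Module.End.mul_apply]
    have h1 : ∀ y ∈ ((Ring.jacobson A) ^ n • ⊤ : Submodule A P),
        ψ y ∈ ((Ring.jacobson A) ^ (n + 1) • ⊤ : Submodule A P) := by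
      intro y hy
      induction hy using Submodule.smul_induction_on' with
      | smul a ha z _ =>
        rw [map_smul, Submodule.pow_succ, ← smul_eq_mul, Submodule.smul_assoc]
        exact Submodule.smul_mem_smul ha (hψ z)
      | add y _ z _ ihy ihz => rw [map_add]; exact Submodule.add_mem _ ihy ihz
    exact h1 _ (ih x)

theorem NuB.split_of_map_injective [FiniteDimensional k A] [Module.Projective A P]
    [Module.Projective A P'] (u : P →ₗ[A] P')
    (h : Function.Injective (NuB.map u : NuB k A P →ₗ[A] NuB k A P')) :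
    ∃ r : P' →ₗ[A] P, r.comp u = LinearMap.id := by
  have hart : IsArtinianRing A := isArtinian_of_tower k (inferInstance : IsArtinian k A)
  set N : Submodule A P := Ring.jacobson A • ⊤ with hN
  set N' : Submodule A P' := Ring.jacobson A • ⊤ with hN'
  -- step 1
  have step1 : ∀ x, u x ∈ N' → x ∈ N := by
    intro x hx
    rw [hN, mem_jac_smul_top_iff]
    rw [hN', mem_jac_smul_top_iff] at hx
    intro f
    by_contra hf
    have hf' : f x ∉ (Ring.jacobson A).restrictScalars k := hf
    obtain ⟨l, hl, hl'⟩ := Submodule.exists_dual_map_eq_bot_of_notMem hf' inferInstance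
    have hl'' : ∀ a ∈ Ring.jacobson A, l a = 0 := by
      intro a ha
      have : l a ∈ ((Ring.jacobson A).restrictScalars k).map l := ⟨a, ha, rfl⟩
      rw [hl'] at this
      simpa using this
    have h0 : NuB.map u (NuB.eta x (DA.ofLin l)) = NuB.map u (0 : NuB k A P) := by
      rw [_root_.map_zero]
      apply Subtype.ext
      ext g
      simp only [NuB.map_coe, NuB.eta_coe, Nu.map_apply, Nu.eta_apply, DA.ofLin_apply,
        LinearMap.comp_apply]
      exact hl'' _ (hx g)
    have h1 := congrArg (fun ξ : NuB k A P => ξ.1 f) (h h0)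
    exact hl h1
  have hle : N ≤ N'.comap u := by
    intro x hx
    rw [hN, mem_jac_smul_top_iff] at hx
    rw [Submodule.mem_comap, hN', mem_jac_smul_top_iff]
    intro g
    exact hx (g.comp u)
  let ubar : (P ⧸ N) →ₗ[A] (P' ⧸ N') := Submodule.mapQ N N' u hle
  have hubar : Function.Injective ubar := by
    rw [injective_iff_map_eq_zero]
    intro y hy
    obtain ⟨x, rfl⟩ := Submodule.Quotient.mk_surjective N y
    have : ubar (Submodule.Quotient.mk x) = Submodule.Quotient.mk (u x) := rfl
    rw [this, Submodule.Quotient.mk_eq_zero] at hy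
    rw [Submodule.Quotient.mk_eq_zero]
    exact step1 x hy
  have htors : Module.IsTorsionBySet A (P' ⧸ N') (Ring.jacobson A : Set A) := by
    rw [Module.isTorsionBySet_quotient_iff]
    intro x r hr
    exact Submodule.smul_mem_smul hr trivial
  have hss : IsSemisimpleModule A (P' ⧸ N') := by
    letI := htors.module
    exact htors.isSemisimpleModule_iff.1 inferInstance
  obtain ⟨ρbar, hρbar⟩ := IsSemisimpleModule.extension_property ubar hubar LinearMap.id
  obtain ⟨ρ, hρ⟩ := Module.projective_lifting_property N.mkQ (ρbar.comp N'.mkQ)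
    (Submodule.mkQ_surjective N)
  let ψ : Module.End A P := 1 - ρ.comp u
  have hψ : ∀ x, ψ x ∈ N := by
    intro x
    rw [← Submodule.Quotient.mk_eq_zero]
    have h1 : N.mkQ (ρ (u x)) = ρbar (N'.mkQ (u x)) := LinearMap.congr_fun hρ (u x)
    have h2 : ρbar (ubar (N.mkQ x)) = N.mkQ x := LinearMap.congr_fun hρbar (N.mkQ x)
    have h3 : ubar (N.mkQ x) = N'.mkQ (u x) := rfl
    change N.mkQ (x - ρ (u x)) = 0
    rw [map_sub, h1, ← h3, h2, sub_self]
  obtain ⟨n, hn⟩ := (IsSemiprimaryRing.isNilpotent : IsNilpotent (Ring.jacobson A))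
  have hnil : IsNilpotent ψ := by
    refine ⟨n, ?_⟩
    ext x
    have := pow_apply_mem ψ hψ n x
    rw [hn] at this
    simpa using this
  obtain ⟨θ, hθ⟩ := hnil.isUnit_one_sub
  have hθ' : (θ : Module.End A P) = ρ.comp u := by rw [hθ]; simp [ψ]
  refine ⟨((θ⁻¹ : (Module.End A P)ˣ) : Module.End A P).comp ρ, ?_⟩
  rw [LinearMap.comp_assoc, ← hθ']
  exact θ.inv_mul

end Split

end Vale.Agent.Lib.P176
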