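import Vale.Agent.Lib.P176.Nakayama

namespace Vale.Agent.Lib.P176

universe u

variable {k : Type u} [Field k] {A : Type u} [Ring A] [Algebra k A]
variable {P : Type u} [AddCommGroup P] [Module A P]

/-- dual basis lemma -/
theorem exists_dual_basis (A : Type u) [Ring A] (P : Type u) [AddCommGroup P] [Module A P]
    [Module.Finite A P] [Module.Projective A P] :
    ∃ (n : ℕ) (p : Fin n → P) (f : Fin n → (P →ₗ[A] A)), ∀ x, x = ∑ j, f j x • p j := by
  obtain ⟨n, π, hπ⟩ := Module.Finite.exists_fin' A P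
  obtain ⟨s, hs⟩ := Module.projective_lifting_property π LinearMap.id hπ
  refine ⟨n, fun j => π (Pi.single j 1), fun j => (LinearMap.proj j).comp s, fun x => ?_⟩
  have h1 : x = π (s x) := by
    have := congrArg (fun T : P →ₗ[A] P => T x) hs
    simpa using this.symm
  conv_lhs => rw [h1, pi_eq_sum_univ (s x)]
  rw [map_sum]
  refine Finset.sum_congr rfl fun j _ => ?_
  rw [← map_smul]
  congr 1
  ext i
  simp [Pi.single_apply, eq_comm]

/-- functionals separate points -/
theorem DA.eq_zero_of_forall (a : A) (h : ∀ l : DA k A, l a = 0) : a = 0 :=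
  (Module.forall_dual_apply_eq_zero_iff k a).1 h

theorem DA.eq_of_forall (a b : A) (h : ∀ l : DA k A, l a = l b) : a = b := by
  rw [← sub_eq_zero]
  apply DA.eq_zero_of_forall (k := k)
  intro l
  have : l (a - b) = l a - l b := (DA.toLin l).map_sub a b
  rw [this, h l, sub_self]

theorem Nu.eta_injective [Module.Finite A P] [Module.Projective A P] (p : P)
    (h : (Nu.eta p : DA k A →ₗ[A] Nu k A P) = 0) : p = 0 := by
  obtain ⟨n, q, f, hf⟩ := exists_dual_basis A P
  rw [hf p]
  refine Finset.sum_eq_zero fun j _ => ?_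
  have : f j p = 0 := by
    apply DA.eq_zero_of_forall (k := k)
    intro l
    have := congrArg (fun T : DA k A →ₗ[A] Nu k A P => T l (f j)) h
    simpa using this
  rw [this, zero_smul]

/-- evaluation: every `k`-linear functional on `DA` is evaluation at an element of `A` -/
theorem DA.exists_eval [FiniteDimensional k A] (ε : DA k A → k)
    (hadd : ∀ l m, ε (l + m) = ε l + ε m)
    (hsmul : ∀ (c : k) (l : DA k A), ε (algebraMap k A c • l) = c * ε l) :
    ∃ a : A, ∀ l, ε l = l a := by
  let E : Module.Dual k (Module.Dual k A) :=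
    { toFun := fun l => ε (DA.ofLin l)
      map_add' := fun l m => hadd _ _
      map_smul' := fun c l => by
        have h1 : DA.ofLin (c • l) = algebraMap k A c • DA.ofLin l := by
          ext x
          simp [← Algebra.commutes, ← Algebra.smul_def]
        rw [h1, hsmul]; rfl }
  refine ⟨(Module.evalEquiv k A).symm E, fun l => ?_⟩
  have h2 : Module.evalEquiv k A ((Module.evalEquiv k A).symm E) = E :=
    LinearEquiv.apply_symm_apply _ _
  have h3 := congrArg (fun T : Module.Dual k (Module.Dual k A) => T (DA.toLin l)) h2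
  simp only [Module.evalEquiv_apply, Module.Dual.eval_apply] at h3
  exact h3.symm

theorem Nu.eta_surjective [FiniteDimensional k A] [Module.Finite A P] [Module.Projective A P]
    (T : DA k A →ₗ[A] Nu k A P) : ∃ p : P, T = Nu.eta p := by
  obtain ⟨n, q, f, hf⟩ := exists_dual_basis A P
  have h1 : ∀ j, ∃ a : A, ∀ l, T l (f j) = l a := by
    intro j
    apply DA.exists_eval
    · intro l m; simp
    · intro c l
      rw [map_smul]
      simp only [Nu.smul_apply]
      have : rdot (f j) (algebraMap k A c) = c • f j := by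
        ext x; simp [← Algebra.commutes, ← Algebra.smul_def]
      rw [this, Nu.map_smul']
  choose a ha using h1
  refine ⟨∑ j, a j • q j, ?_⟩
  ext l g
  have h2 : g = ∑ j, rdot (f j) (g (q j)) := by
    ext x
    conv_lhs => rw [hf x]
    simp [map_sum]
  conv_lhs => rw [h2]
  rw [Nu.map_sum', Nu.eta_apply, map_sum, DA.map_sum']
  refine Finset.sum_congr rfl fun j _ => ?_
  have h3 : T l (rdot (f j) (g (q j))) = (g (q j) • T l) (f j) := rfl
  rw [h3, ← map_smul, ha]
  simp

variable {P' P'' : Type u} [AddCommGroup P'] [Module A P'] [AddCommGroup P''] [Module A P'']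

/-- exactness of `P' → P → P''` is inherited by `Hom_A(DA, ν -)` -/
theorem Nu.exact_transfer [FiniteDimensional k A] [Module.Finite A P] [Module.Projective A P]
    [Module.Finite A P''] [Module.Projective A P'']
    (u : P' →ₗ[A] P) (v : P →ₗ[A] P'') (hex : ∀ p, v p = 0 → ∃ p', u p' = p)
    (φ : DA k A →ₗ[A] Nu k A P) (hφ : (Nu.map v).comp φ = 0) :
    ∃ ψ : DA k A →ₗ[A] Nu k A P', (Nu.map u).comp ψ = φ := by
  obtain ⟨p, rfl⟩ := Nu.eta_surjective φ
  rw [Nu.map_comp_eta] at hφ
  obtain ⟨p', rfl⟩ := hex p (Nu.eta_injective _ hφ)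
  exact ⟨Nu.eta p', Nu.map_comp_eta u p'⟩

/-- if `ν u` is injective then `u` is a split monomorphism -/
theorem Nu.split_of_map_injective [Module.Finite A P] [Module.Projective A P]
    (u : P →ₗ[A] P') (h : Function.Injective (Nu.map u : Nu k A P →ₗ[A] Nu k A P')) :
    ∃ r : P' →ₗ[A] P, r.comp u = LinearMap.id := by
  obtain ⟨n, q, f, hf⟩ := exists_dual_basis A P
  -- precomposition with `u`
  let U : (P' →ₗ[A] A) →ₗ[k] (P →ₗ[A] A) :=
    { toFun := fun g => g.comp u
      map_add' := fun g g' => LinearMap.add_comp _ _ _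
      map_smul' := fun c g => LinearMap.smul_comp _ _ _ }
  have hU : Function.Surjective U := by
    rw [← LinearMap.dualMap_injective_iff]
    intro ξ ζ hξ
    exact h (a₁ := Nu.ofLin ξ) (a₂ := Nu.ofLin ζ) hξ
  choose g hg using fun j => hU (f j)
  refine ⟨∑ j, (LinearMap.toSpanSingleton A P (q j)).comp (g j), ?_⟩
  ext x
  simp only [LinearMap.comp_apply, LinearMap.sum_apply, LinearMap.toSpanSingleton_apply,
    LinearMap.id_apply]
  conv_rhs => rw [hf x]
  refine Finset.sum_congr rfl fun j _ => ?_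
  have : g j (u x) = f j x := congrArg (fun T : P →ₗ[A] A => T x) (hg j)
  rw [this]

/-- `ν` of a trivial module is trivial -/
theorem Nu.subsingleton_of_subsingleton [Subsingleton P] : Subsingleton (Nu k A P) := by
  refine ⟨fun ξ ζ => ?_⟩
  ext f
  have : f = 0 := by ext x; rw [Subsingleton.elim x 0]; simp
  rw [this, Nu.map_zero', Nu.map_zero']

/-! ### Injectivity -/

theorem baer_DA : Module.Baer A (DA k A) := by
  intro J g
  let φ₀ : (J.restrictScalars k) →ₗ[k] k :=
    { toFun := fun x => g ⟨x.1, x.2⟩ 1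
      map_add' := fun x y => by
        have : (⟨(x + y).1, (x + y).2⟩ : J) = ⟨x.1, x.2⟩ + ⟨y.1, y.2⟩ := rfl
        rw [this, map_add]; rfl
      map_smul' := fun c x => by
        have : (⟨(c • x).1, (c • x).2⟩ : J) = algebraMap k A c • (⟨x.1, x.2⟩ : J) := by
          ext; simp [Algebra.smul_def]
        rw [this, map_smul]
        simp only [DA.smul_apply, one_mul, RingHom.id_apply, smul_eq_mul]
        rw [← mul_one (algebraMap k A c), ← Algebra.smul_def, DA.map_smul'] }
  obtain ⟨l₀, hl₀⟩ := LinearMap.exists_extend φ₀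
  refine ⟨LinearMap.toSpanSingleton A (DA k A) (DA.ofLin l₀), fun a ha => ?_⟩
  ext x
  simp only [LinearMap.toSpanSingleton_apply, DA.smul_apply, DA.ofLin_apply]
  have h1 : l₀ (x * a) = φ₀ ⟨x * a, J.mul_mem_left x ha⟩ :=
    congrArg (fun T : (J.restrictScalars k) →ₗ[k] k => T ⟨x * a, J.mul_mem_left x ha⟩) hl₀
  rw [h1]
  have h2 : (⟨x * a, J.mul_mem_left x ha⟩ : J) = x • (⟨a, ha⟩ : J) := rfl
  change g ⟨x * a, _⟩ 1 = _
  rw [h2, map_smul]
  simp

theorem baer_of_retract {Q Q' : Type u} [AddCommGroup Q] [Module A Q] [AddCommGroup Q']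
    [Module A Q'] (s : Q →ₗ[A] Q') (r : Q' →ₗ[A] Q) (hrs : ∀ x, r (s x) = x)
    (h : Module.Baer A Q') : Module.Baer A Q := by
  intro J g
  obtain ⟨g', hg'⟩ := h J (s.comp g)
  exact ⟨r.comp g', fun x hx => by simp [hg' x hx, hrs]⟩

theorem baer_pi {ι : Type*} (Q : ι → Type u) [∀ i, AddCommGroup (Q i)] [∀ i, Module A (Q i)]
    (h : ∀ i, Module.Baer A (Q i)) : Module.Baer A (∀ i, Q i) := by
  intro J g
  choose g' hg' using fun i => h i J ((LinearMap.proj i).comp g)
  exact ⟨LinearMap.pi g', fun x hx => by ext i; simp [hg' i x hx]⟩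

theorem baer_prod {Q Q' : Type u} [AddCommGroup Q] [Module A Q] [AddCommGroup Q']
    [Module A Q'] (h : Module.Baer A Q) (h' : Module.Baer A Q') : Module.Baer A (Q × Q') := by
  intro J g
  obtain ⟨g₁, hg₁⟩ := h J ((LinearMap.fst A Q Q').comp g)
  obtain ⟨g₂, hg₂⟩ := h' J ((LinearMap.snd A Q Q').comp g)
  exact ⟨g₁.prod g₂, fun x hx => by ext <;> simp [hg₁ x hx, hg₂ x hx]⟩

end Vale.Agent.Lib.P176
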