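import Mathlib

namespace Vale.Agent.Lib.P176

open CategoryTheory

universe u

variable {A : Type u} [Ring A]

theorem exists_cover (K : ModuleCat.{u} A) :
    ∃ (F : ModuleCat.{u} A) (π : F ⟶ K), Module.Projective A F ∧ Function.Surjective π.hom ∧
      (Module.Finite A K → Module.Finite A F) ∧
      (Module.Projective A K → Function.Injective π.hom) := by
  by_cases hK : Module.Projective A K
  · exact ⟨K, 𝟙 K, hK, fun x => ⟨x, rfl⟩, fun h => h, fun _ x y h => h⟩
  · by_cases hf : Module.Finite A K
    · obtain ⟨n, f, hf'⟩ := Module.Finite.exists_fin' A K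
      exact ⟨ModuleCat.of A (Fin n → A), ModuleCat.ofHom f, inferInstance, hf',
        fun _ => inferInstance, fun h => absurd h hK⟩
    · refine ⟨ModuleCat.of A (K →₀ A), ModuleCat.ofHom (Finsupp.linearCombination A id),
        inferInstance, ?_, fun h => absurd h hf, fun h => absurd h hK⟩
      intro x
      exact ⟨Finsupp.single x 1, by simp⟩

/-- a chosen projective cover-like presentation -/
noncomputable def coverObj (K : ModuleCat.{u} A) : ModuleCat.{u} A := (exists_cover K).choose

noncomputable def coverMap (K : ModuleCat.{u} A) : coverObj K ⟶ K :=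
  (exists_cover K).choose_spec.choose

theorem coverObj_projective (K : ModuleCat.{u} A) : Module.Projective A (coverObj K) :=
  (exists_cover K).choose_spec.choose_spec.1

theorem coverMap_surjective (K : ModuleCat.{u} A) : Function.Surjective (coverMap K).hom :=
  (exists_cover K).choose_spec.choose_spec.2.1

theorem coverObj_finite (K : ModuleCat.{u} A) (h : Module.Finite A K) :
    Module.Finite A (coverObj K) :=
  (exists_cover K).choose_spec.choose_spec.2.2.1 h

theorem coverMap_injective (K : ModuleCat.{u} A) (h : Module.Projective A K) :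
    Function.Injective (coverMap K).hom :=
  (exists_cover K).choose_spec.choose_spec.2.2.2 h

/-- the short exact sequence `0 → syz K → coverObj K → K → 0` -/
noncomputable abbrev syzSeq (K : ModuleCat.{u} A) : ShortComplex (ModuleCat.{u} A) :=
  (coverMap K).hom.shortComplexKer

theorem syzSeq_shortExact (K : ModuleCat.{u} A) : (syzSeq K).ShortExact :=
  LinearMap.shortExact_shortComplexKer (coverMap_surjective K)

/-- the syzygy -/
noncomputable abbrev syz (K : ModuleCat.{u} A) : ModuleCat.{u} A := (syzSeq K).X₁

/-- the tower of syzygies -/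
noncomputable def tower (M : ModuleCat.{u} A) : ℕ → ModuleCat.{u} A
  | 0 => M
  | j + 1 => syz (tower M j)

/-- the terms of the resolution -/
noncomputable def resObj (M : ModuleCat.{u} A) (j : ℕ) : ModuleCat.{u} A := coverObj (tower M j)

/-- the differentials of the resolution -/
noncomputable def resD (M : ModuleCat.{u} A) (j : ℕ) : resObj M (j + 1) ⟶ resObj M j :=
  coverMap (tower M (j + 1)) ≫ (syzSeq (tower M j)).f

theorem resD_comp (M : ModuleCat.{u} A) (j : ℕ) : resD M (j + 1) ≫ resD M j = 0 := by
  apply ModuleCat.hom_ext
  apply LinearMap.ext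
  intro x
  have h := ((coverMap (tower M (j + 2))).hom x :
    LinearMap.ker (coverMap (tower M (j + 1))).hom).2
  change ((coverMap (tower M (j + 1))).hom (((coverMap (tower M (j + 2))).hom x :
    LinearMap.ker (coverMap (tower M (j + 1))).hom).1) :
      LinearMap.ker (coverMap (tower M j)).hom).1 = 0
  rw [LinearMap.mem_ker.1 h]
  rfl

/-- the resolution as a chain complex -/
noncomputable def res (M : ModuleCat.{u} A) : ChainComplex (ModuleCat.{u} A) ℕ :=
  ChainComplex.of (resObj M) (resD M) (resD_comp M)

instance res_projective (M : ModuleCat.{u} A) (j : ℕ) : Module.Projective A ((res M).X j) :=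
  coverObj_projective _

theorem tower_finite [IsNoetherianRing A] (M : ModuleCat.{u} A) (hM : Module.Finite A M) (j : ℕ) :
    Module.Finite A (tower M j) := by
  induction j with
  | zero => exact hM
  | succ j ih =>
    have := coverObj_finite _ ih
    change Module.Finite A (LinearMap.ker (coverMap (tower M j)).hom)
    infer_instance

theorem res_finite [IsNoetherianRing A] (M : ModuleCat.{u} A) (hM : Module.Finite A M) (j : ℕ) :
    Module.Finite A ((res M).X j) :=
  coverObj_finite _ (tower_finite M hM j)

theorem resD_exact (M : ModuleCat.{u} A) (j : ℕ) (x : resObj M (j + 1))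
    (hx : (resD M j).hom x = 0) : ∃ y : resObj M (j + 2), (resD M (j + 1)).hom y = x := by
  have h1 : (coverMap (tower M (j + 1))).hom x = 0 := by
    have h2 : ((coverMap (tower M (j + 1))).hom x :
      LinearMap.ker (coverMap (tower M j)).hom).1 = 0 := hx
    exact Subtype.ext h2
  obtain ⟨y, hy⟩ := coverMap_surjective (tower M (j + 2))
    (⟨x, h1⟩ : LinearMap.ker (coverMap (tower M (j + 1))).hom)
  refine ⟨y, ?_⟩
  change ((coverMap (tower M (j + 2))).hom y :
      LinearMap.ker (coverMap (tower M (j + 1))).hom).1 = x
  rw [hy]

theorem res_exact (M : ModuleCat.{u} A) (p q r : ℕ) (hpq : p = q + 1) (hqr : q = r + 1)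
    (x : (res M).X q) (hx : ((res M).d q r).hom x = 0) :
    ∃ y : (res M).X p, ((res M).d p q).hom y = x := by
  subst hqr
  subst hpq
  have h1 : (res M).d (r + 1) r = resD M r := ChainComplex.of_d _ _ _
  have h2 : (res M).d (r + 1 + 1) (r + 1) = resD M (r + 1) := ChainComplex.of_d _ _ _
  rw [h1] at hx
  rw [h2]
  exact resD_exact M r x hx

theorem projective_iff (K : ModuleCat.{u} A) : Module.Projective A K ↔ Projective K :=
  IsProjective.iff_projective K

theorem hasPDLT_tower_iff (M : ModuleCat.{u} A) (j m : ℕ) :
    HasProjectiveDimensionLT M (j + m + 1) ↔ HasProjectiveDimensionLT (tower M j) (m + 1) := by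
  induction j generalizing m with
  | zero => simp [tower]
  | succ j ih =>
    have h1 := ih (m + 1)
    have h2 : Projective (syzSeq (tower M j)).X₂ :=
      (projective_iff _).1 (coverObj_projective (tower M j))
    have h3 := (syzSeq_shortExact (tower M j)).hasProjectiveDimensionLT_X₃_iff m h2
    rw [show j + 1 + m + 1 = j + (m + 1) + 1 by omega, h1]
    exact h3

theorem tower_projective_iff (M : ModuleCat.{u} A) (j : ℕ) :
    Module.Projective A (tower M j) ↔ HasProjectiveDimensionLT M (j + 1) := by
  rw [projective_iff, projective_iff_hasProjectiveDimensionLT_one]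
  exact (hasPDLT_tower_iff M j 0).symm

theorem tower_succ_subsingleton (M : ModuleCat.{u} A) (j : ℕ)
    (h : Module.Projective A (tower M j)) : Subsingleton (tower M (j + 1)) := by
  have h1 := LinearMap.ker_eq_bot.2 (coverMap_injective _ h)
  change Subsingleton (LinearMap.ker (coverMap (tower M j)).hom)
  rw [h1]
  infer_instance

theorem projective_of_subsingleton (K : ModuleCat.{u} A) (h : Subsingleton K) :
    Module.Projective A K := by
  have := Module.Free.of_subsingleton A K
  exact Module.Projective.of_free

theorem tower_subsingleton (M : ModuleCat.{u} A) (d : ℕ)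
    (h : Module.Projective A (tower M d)) (j : ℕ) (hj : d < j) : Subsingleton (tower M j) := by
  induction j with
  | zero => omega
  | succ j ih =>
    rcases Nat.lt_succ_iff_lt_or_eq.1 hj with h1 | h1
    · have := ih h1
      exact tower_succ_subsingleton M j (projective_of_subsingleton _ this)
    · subst h1
      exact tower_succ_subsingleton M d h

theorem res_subsingleton (M : ModuleCat.{u} A) (d : ℕ)
    (h : Module.Projective A (tower M d)) (j : ℕ) (hj : d < j) : Subsingleton ((res M).X j) := by
  have h1 := tower_subsingleton M d h j hj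
  exact (coverMap_injective (tower M j) (projective_of_subsingleton _ h1)).subsingleton

/-- the last differential does not split if the previous syzygy is not projective -/
theorem res_not_split (M : ModuleCat.{u} A) (d : ℕ)
    (h : Module.Projective A (tower M (d + 1))) (h' : ¬ Module.Projective A (tower M d))
    (r : (res M).X d →ₗ[A] (res M).X (d + 1))
    (hr : r.comp ((res M).d (d + 1) d).hom = LinearMap.id) : False := by
  apply h'
  have h1 : (res M).d (d + 1) d = resD M d := ChainComplex.of_d _ _ _
  rw [h1] at hr
  have hinj := coverMap_injective _ h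
  have hsurj := coverMap_surjective (tower M (d + 1))
  -- retraction of the inclusion of the syzygy
  let ρ : (syzSeq (tower M d)).X₂ ⟶ (syzSeq (tower M d)).X₁ :=
    ModuleCat.ofHom ((coverMap (tower M (d + 1))).hom.comp r)
  have hρ : (syzSeq (tower M d)).f ≫ ρ = 𝟙 _ := by
    apply ModuleCat.hom_ext
    apply LinearMap.ext
    intro x
    obtain ⟨y, rfl⟩ := hsurj x
    have h2 : r ((resD M d).hom y) = y := LinearMap.congr_fun hr y
    change (coverMap (tower M (d + 1))).hom (r ((resD M d).hom y)) = _
    rw [h2]
    rfl
  have hS := syzSeq_shortExact (tower M d)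
  have sp := ShortComplex.Splitting.ofExactOfRetraction _ hS.exact ρ hρ hS.epi_g
  have h3 : Projective (syzSeq (tower M d)).X₂ :=
    (projective_iff _).1 (coverObj_projective (tower M d))
  have h4 : Projective (syzSeq (tower M d)).X₃ :=
    (Retract.mk sp.s (syzSeq (tower M d)).g sp.s_g).projective
  exact (projective_iff _).2 h4

end Vale.Agent.Lib.P176
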