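import Vale.Agent.Lib.P176.Rickard
import Vale.Agent.Lib.P176.NakayamaBig2

namespace Vale.Agent.Lib.P176

open CategoryTheory

universe u

variable (k : Type u) [Field k] {A : Type u} [Ring A] [Algebra k A]

section Family

variable (C : ℕ → ChainComplex (ModuleCat.{u} A) ℕ) (e : ℕ → ℕ)

/-- the terms `ν (C i)` reindexed -/
abbrev NNB (i : ℕ) (n : ℤ) : Type u := NuB k A ((C i).X (idx e i n))

/-- the differentials -/
noncomputable def DDB (i : ℕ) (a b : ℤ) : NNB k C e i a →ₗ[A] NNB k C e i b :=
  NuB.map ((C i).d (idx e i a) (idx e i b)).hom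

theorem DDB_comp (i : ℕ) (a b c : ℤ) : (DDB k C e i b c).comp (DDB k C e i a b) = 0 := by
  simp only [DDB]
  rw [← NuB.map_comp, ← ModuleCat.hom_comp, (C i).d_comp_d]
  exact NuB.map_zero

/-- the complex `Y` -/
noncomputable def YYB : CochainComplex (ModuleCat.{u} A) ℤ :=
  CochainComplex.of (fun n => ModuleCat.of A (Yt (NNB k C e) n))
    (fun n => ModuleCat.ofHom (dY (NNB k C e) (DDB k C e) n))
    (fun n => by
      rw [← ModuleCat.ofHom_comp, dY_comp _ _ (DDB_comp k C e)]
      rfl)

theorem YYB_d (n : ℤ) : (YYB k C e).d n (n + 1) = ModuleCat.ofHom (dY (NNB k C e) (DDB k C e) n) :=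
  CochainComplex.of_d (fun n => ModuleCat.of A (Yt (NNB k C e) n))
    (fun n => ModuleCat.ofHom (dY (NNB k C e) (DDB k C e) n)) n

variable [FiniteDimensional k A] [IsNoetherianRing A]
  [hproj : ∀ i j, Module.Projective A ((C i).X j)]

theorem YYB_injective (n : ℤ) : Injective ((YYB k C e).X n) := by
  have h1 : Module.Baer A (Yt (NNB k C e) n) := baer_Yt _ (fun i m => baer_NuB) n
  have h2 := h1.injective
  exact Module.injective_object_of_injective_module A _

theorem NNB_subsingleton (hzero : ∀ i j, e i + 1 < j → Subsingleton ((C i).X j)) (i : ℕ) (n : ℤ)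
    (hn : n < 0) : Subsingleton (NNB k C e i n) := by
  have := hzero i (idx e i n) (by unfold idx; omega)
  exact NuB.subsingleton_of_subsingleton

theorem YYB_isStrictlyGE (hzero : ∀ i j, e i + 1 < j → Subsingleton ((C i).X j)) :
    (YYB k C e).IsStrictlyGE (-1) := by
  rw [CochainComplex.isStrictlyGE_iff]
  intro n hn
  have h1 : ∀ i, Subsingleton (NNB k C e i (n + 1)) := fun i =>
    NNB_subsingleton k C e hzero i _ (by omega)
  have h2 : ∀ i, Subsingleton (NNB k C e i n) := fun i =>
    NNB_subsingleton k C e hzero i _ (by omega)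
  have h3 : Subsingleton (Π₀ i, NNB k C e i (n + 1)) :=
    ⟨fun x y => DFinsupp.ext fun i => Subsingleton.elim _ _⟩
  have h4 : Subsingleton (Yt (NNB k C e) n) := inferInstance
  exact ModuleCat.isZero_of_subsingleton (ModuleCat.of A (Yt (NNB k C e) n))

theorem YYB_not_acyclic (hzero : ∀ i j, e i + 1 < j → Subsingleton ((C i).X j))
    (hsplit : ∀ i (r : (C i).X (e i) →ₗ[A] (C i).X (e i + 1)),
      r.comp ((C i).d (e i + 1) (e i)).hom ≠ LinearMap.id) :
    ¬ (YYB k C e).Acyclic := by
  intro hac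
  have hsplit' : ∀ i (p q : ℕ), p = e i + 1 → q = e i → ∀ (r : (C i).X q →ₗ[A] (C i).X p),
      r.comp ((C i).d p q).hom ≠ LinearMap.id := by
    intro i p q hp hq
    subst hp; subst hq
    exact hsplit i
  have h1 : ∀ i, ∃ y : NNB k C e i (-1 + 1), y ≠ 0 ∧ DDB k C e i (-1 + 1) (-1 + 1 + 1) y = 0 := by
    intro i
    by_contra hcon
    push Not at hcon
    have hinj : Function.Injective (DDB k C e i (-1 + 1) (-1 + 1 + 1)) := by
      rw [injective_iff_map_eq_zero]
      intro y hy
      by_contra hne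
      exact hcon y hne hy
    obtain ⟨r, hr⟩ := NuB.split_of_map_injective _ hinj
    exact hsplit' i _ _ (by unfold idx; omega) (by unfold idx; omega) r hr
  choose y hy hDy using h1
  obtain ⟨z, hz, hw⟩ := cone_not_exact (NNB k C e) (DDB k C e) (-1)
    (fun i => NNB_subsingleton k C e hzero i _ (by omega)) y hy hDy
  have hex := hac (-1 + 1)
  rw [HomologicalComplex.exactAt_iff' _ (-1) (-1 + 1) (-1 + 1 + 1) (by simp) (by simp),
    ShortComplex.moduleCat_exact_iff] at hex
  have h2 : ((YYB k C e).d (-1 + 1) (-1 + 1 + 1)).hom z = 0 := by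
    rw [YYB_d]; exact hz
  obtain ⟨w, hw'⟩ := hex z h2
  have h3 : ((YYB k C e).d (-1) (-1 + 1)).hom w = z := hw'
  rw [YYB_d] at h3
  exact hw w h3

theorem YYB_exact_DA (hle : ∀ i, i ≤ e i)
    (hex : ∀ i (p q r : ℕ), p = q + 1 → q = r + 1 → ∀ x : (C i).X q, ((C i).d q r).hom x = 0 →
      ∃ y : (C i).X p, ((C i).d p q).hom y = x) (n : ℤ)
    (φ : DA k A →ₗ[A] Yt (NNB k C e) (n + 1))
    (hφ : (dY (NNB k C e) (DDB k C e) (n + 1)).comp φ = 0) :
    ∃ ψ : DA k A →ₗ[A] Yt (NNB k C e) n, (dY (NNB k C e) (DDB k C e) n).comp ψ = φ := by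
  have hDAfin : Module.Finite A (DA k A) := DA.finite k
  refine cone_exact (NNB k C e) (DDB k C e) n (Finset.range (n + 1).toNat) ?_ φ hφ
  intro i hi π hπ
  have hi' : n + 1 ≤ e i := by
    have := hle i
    simp only [Finset.mem_range, not_lt] at hi
    omega
  exact NuB.exact_transfer _ _ (hex i _ _ _ (by unfold idx; omega) (by unfold idx; omega)) π hπ

universe t w

include k in
theorem family_not_generateB [HasDerivedCategory.{w} (ModuleCat.{u} A)]
    (hzero : ∀ i j, e i + 1 < j → Subsingleton ((C i).X j))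
    (hsplit : ∀ i (r : (C i).X (e i) →ₗ[A] (C i).X (e i + 1)),
      r.comp ((C i).d (e i + 1) (e i)).hom ≠ LinearMap.id)
    (hle : ∀ i, i ≤ e i)
    (hex : ∀ i (p q r : ℕ), p = q + 1 → q = r + 1 → ∀ x : (C i).X q, ((C i).d q r).hom x = 0 →
      ∃ y : (C i).X p, ((C i).d p q).hom y = x) :
    ¬ InjectivesGenerate.{t} (ModuleCat.{u} A) := by
  have h1 := YYB_isStrictlyGE k C e hzero
  have h2 : ∀ n, Injective ((YYB k C e).X n) := YYB_injective k C e
  have h3 : (YYB k C e).IsKInjective := CochainComplex.isKInjective_of_injective _ (-1)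
  refine not_injectivesGenerate' (YYB k C e) (YYB_not_acyclic k C e hzero hsplit) ?_
  intro I hI a b c hab hbc φ hφ
  subst hab
  subst hbc
  have hI' : Module.Injective A I := Module.injective_module_of_injective_object A I
  obtain ⟨B, i, r, hri⟩ := exists_retract k A I
  rw [YYB_d] at hφ
  have hφ' : (dY (NNB k C e) (DDB k C e) (a + 1)).comp φ.hom = 0 :=
    congrArg ModuleCat.Hom.hom hφ
  obtain ⟨ψ, hψ⟩ := exact_of_retract (dY (NNB k C e) (DDB k C e) a)
    (dY (NNB k C e) (DDB k C e) (a + 1)) i r hri (YYB_exact_DA k C e hle hex a) φ.hom hφ'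
  refine ⟨ModuleCat.ofHom ψ, ?_⟩
  rw [YYB_d]
  apply ModuleCat.hom_ext
  exact hψ

end Family

universe t w

include k in
/-- **Rickard's theorem** (big finitistic dimension version). -/
theorem bigFindim_finite_of_injectivesGenerate [FiniteDimensional k A]
    [HasDerivedCategory.{w} (ModuleCat.{u} A)]
    (h : InjectivesGenerate.{t} (ModuleCat.{u} A)) :
    ∃ n : ℕ, ∀ M : ModuleCat.{u} A, ∀ m, HasProjectiveDimensionLT M m →
      HasProjectiveDimensionLT M (n + 1) := by
  have hnoeth : IsNoetherianRing A :=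
    isNoetherian_of_tower k (inferInstance : IsNoetherian k A)
  by_contra hcon
  push Not at hcon
  choose M m hm hn using hcon
  have hne : ∀ i, ∃ j, Module.Projective A (tower (M i) j) := fun i =>
    ⟨m i, (tower_projective_iff _ _).2 (hasProjectiveDimensionLT_of_ge (M i) (m i) _ (by omega))⟩
  classical
  let dd : ℕ → ℕ := fun i => Nat.find (hne i)
  have hdd : ∀ i, Module.Projective A (tower (M i) (dd i)) := fun i => Nat.find_spec (hne i)
  have hlt : ∀ i, i < dd i := by
    intro i
    by_contra hle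
    have := (tower_projective_iff _ _).1 (hdd i)
    exact hn i (hasProjectiveDimensionLT_of_ge (M i) (dd i + 1) (i + 1) (by omega))
  let e : ℕ → ℕ := fun i => dd i - 1
  have he : ∀ i, dd i = e i + 1 := fun i => by have := hlt i; simp only [e]; omega
  have hmin : ∀ i, ¬ Module.Projective A (tower (M i) (e i)) := fun i =>
    Nat.find_min (hne i) (by have := he i; simp only [dd] at this; omega)
  have hdd' : ∀ i, Module.Projective A (tower (M i) (e i + 1)) := fun i => by
    rw [← he i]; exact hdd i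
  refine family_not_generateB k (fun i => res (M i)) e ?_ ?_ ?_ ?_ h
  · intro i j hj
    exact res_subsingleton (M i) (e i + 1) (hdd' i) j hj
  · intro i r hr
    exact res_not_split (M i) (e i) (hdd' i) (hmin i) r hr
  · intro i
    have := hlt i; have := he i; omega
  · intro i p q r hpq hqr x hx
    exact res_exact (M i) p q r hpq hqr x hx

end Vale.Agent.Lib.P176
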