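import Vale.Agent.Lib.P176.NakayamaProps

namespace Vale.Agent.Lib.P176

universe u

open Classical in
/-- a linear map from a finitely generated module to a direct sum has finite support -/
theorem exists_finite_support {A : Type u} [Ring A] {X : Type u} [AddCommGroup X] [Module A X]
    [Module.Finite A X] {ι : Type*} (Q : ι → Type u) [∀ i, AddCommGroup (Q i)]
    [∀ i, Module A (Q i)] (σ : X →ₗ[A] Π₀ i, Q i) :
    ∃ S : Finset ι, ∀ i ∉ S, ∀ x, σ x i = 0 := by
  obtain ⟨s, hs⟩ := (Module.Finite.fg_top : (⊤ : Submodule A X).FG)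
  refine ⟨s.biUnion fun x => (σ x).support, fun i hi x => ?_⟩
  have h1 : (⊤ : Submodule A X) ≤ LinearMap.ker ((DFinsupp.lapply i).comp σ) := by
    rw [← hs, Submodule.span_le]
    intro y hy
    simp only [SetLike.mem_coe, LinearMap.mem_ker, LinearMap.comp_apply, DFinsupp.lapply_apply]
    by_contra hne
    exact hi (Finset.mem_biUnion.2 ⟨y, hy, DFinsupp.mem_support_iff.2 hne⟩)
  simpa using h1 (Submodule.mem_top : x ∈ ⊤)

open Classical in
theorem baer_dfinsupp {A : Type u} [Ring A] [IsNoetherianRing A] {ι : Type*} (Q : ι → Type u)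
    [∀ i, AddCommGroup (Q i)] [∀ i, Module A (Q i)]
    (h : ∀ i, Module.Baer A (Q i)) : Module.Baer A (Π₀ i, Q i) := by
  intro J g
  obtain ⟨S, hS⟩ := exists_finite_support Q g
  choose g' hg' using fun i => h i J ((DFinsupp.lapply i).comp g)
  refine ⟨∑ i ∈ S, (DFinsupp.lsingle i).comp (g' i), fun x hx => ?_⟩
  ext i
  simp only [LinearMap.sum_apply, LinearMap.comp_apply, DFinsupp.lsingle_apply,
    DFinsupp.finsetSum_apply]
  by_cases hi : i ∈ S
  · rw [Finset.sum_eq_single i]
    · simp [hg' i x hx]
    · intro j _ hj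
      simp [DFinsupp.single_apply, hj]
    · intro h'; exact absurd hi h'
  · rw [hS i hi]
    refine Finset.sum_eq_zero fun j hj => ?_
    have : j ≠ i := fun e => hi (e ▸ hj)
    simp [DFinsupp.single_apply, this]

variable {k : Type u} [Field k] {A : Type u} [Ring A] [Algebra k A]
variable {P : Type u} [AddCommGroup P] [Module A P]

theorem baer_Nu [Module.Finite A P] [Module.Projective A P] : Module.Baer A (Nu k A P) := by
  obtain ⟨n, q, f, hf⟩ := exists_dual_basis A P
  let s : Nu k A P →ₗ[A] (ULift.{u} (Fin n) → DA k A) :=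
    { toFun := fun ξ j => DA.ofLin
        { toFun := fun x => ξ (rdot (f j.down) x)
          map_add' := fun x y => by rw [rdot_add', Nu.map_add']
          map_smul' := fun c x => by rw [rdot_smul', Nu.map_smul']; rfl }
      map_add' := fun ξ ζ => by ext j x; simp
      map_smul' := fun a ξ => by ext j x; simp [rdot_mul] }
  let r : (ULift.{u} (Fin n) → DA k A) →ₗ[A] Nu k A P :=
    { toFun := fun l => Nu.ofLin
        { toFun := fun g => ∑ j, l ⟨j⟩ (g (q j))
          map_add' := fun g g' => by simp [DA.map_add', Finset.sum_add_distrib]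
          map_smul' := fun c g => by simp [DA.map_smul', Finset.mul_sum] }
      map_add' := fun l m => by ext g; simp [Finset.sum_add_distrib]
      map_smul' := fun a l => by ext g; simp }
  refine baer_of_retract s r (fun ξ => ?_) (baer_pi _ fun _ => baer_DA)
  ext g
  have h2 : g = ∑ j, rdot (f j) (g (q j)) := by
    ext x
    conv_lhs => rw [hf x]
    simp [map_sum]
  conv_rhs => rw [h2, Nu.map_sum']
  rfl

end Vale.Agent.Lib.P176
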